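import Vale.Agent.P208.Model

namespace Vale.Agent.P208

variable {H : Type*} [NormedAddCommGroup H] [InnerProductSpace ℝ H]

/-- the scale index used by block `b` at the point `x` -/
noncomputable def jb (b : Fin 4) (x : H) : ℤ :=
  Int.log 2 ‖x‖ + 1 - ((Int.log 2 ‖x‖ + 1 - (b : ℤ)) % 4)

theorem jb_mod (b : Fin 4) (x : H) : jb b x % 4 = (b : ℤ) := by
  unfold jb
  have := b.2
  omega

theorem jb_eq (b : Fin 4) (x : H) (j : ℤ) (hj : j % 4 = (b : ℤ))
    (hne : bump (‖x‖ / (2 : ℝ) ^ j) ≠ 0) : jb b x = j := by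
  have hpos : (0 : ℝ) < (2 : ℝ) ^ j := by positivity
  have h1 : 1 / 2 < ‖x‖ / (2 : ℝ) ^ j := by
    by_contra h
    exact hne (bump_eq_zero_of_le (not_lt.1 h))
  have h2 : ‖x‖ / (2 : ℝ) ^ j < 8 := by
    by_contra h
    exact hne (bump_eq_zero_of_ge (not_lt.1 h))
  rw [lt_div_iff₀ hpos] at h1
  rw [div_lt_iff₀ hpos] at h2
  have hx : 0 < ‖x‖ := lt_trans (by positivity) h1
  have h3 : ((2 : ℕ) : ℝ) ^ Int.log 2 ‖x‖ ≤ ‖x‖ := Int.zpow_log_le_self (by norm_num) hx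
  have h4 : ‖x‖ < ((2 : ℕ) : ℝ) ^ (Int.log 2 ‖x‖ + 1) := Int.lt_zpow_succ_log_self (by norm_num) _
  push_cast at h3 h4
  have h5 : (2 : ℝ) ^ (j - 1) < (2 : ℝ) ^ (Int.log 2 ‖x‖ + 1) := by
    have : (2 : ℝ) ^ (j - 1) = 1 / 2 * 2 ^ j := by
      rw [zpow_sub₀ (by norm_num : (2 : ℝ) ≠ 0)]
      simp
      ring
    rw [this]
    exact lt_trans h1 h4
  have h6 : (2 : ℝ) ^ (Int.log 2 ‖x‖) < (2 : ℝ) ^ (j + 3) := by
    have : (2 : ℝ) ^ (j + 3) = 8 * 2 ^ j := by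
      rw [zpow_add₀ (by norm_num : (2 : ℝ) ≠ 0)]
      norm_num
      ring
    rw [this]
    exact lt_of_le_of_lt h3 h2
  rw [zpow_lt_zpow_iff_right₀ (by norm_num : (1 : ℝ) < 2)] at h5 h6
  unfold jb
  have := b.2
  omega

section blocks

variable {n : ℕ} (φ : ℤ → H →ₗ[ℝ] EuclideanSpace ℝ (Fin n))

/-- localized piece at scale `j` -/
noncomputable def piece (j : ℤ) (x : H) : EuclideanSpace ℝ (Fin n) :=
  bump (‖x‖ / (2 : ℝ) ^ j) • φ j x

/-- block `b` of the embedding -/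
noncomputable def block (b : Fin 4) (x : H) : EuclideanSpace ℝ (Fin n) :=
  piece φ (jb b x) x

theorem piece_lip (hφ : ∀ j v, ‖φ j v‖ ≤ ‖v‖) (j : ℤ) (x y : H) :
    ‖piece φ j x - piece φ j y‖ ≤ 17 * ‖x - y‖ :=
  local_lip (φ j) (hφ j) (by positivity) x y

theorem block_lip (hφ : ∀ j v, ‖φ j v‖ ≤ ‖v‖) (b : Fin 4) (x y : H) :
    ‖block φ b x - block φ b y‖ ≤ 34 * ‖x - y‖ := by
  unfold block
  by_cases h : jb b x = jb b y
  · rw [h]
    have := piece_lip φ hφ (jb b y) x y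
    have h0 := norm_nonneg (x - y)
    linarith
  · have h1 : piece φ (jb b x) y = 0 := by
      unfold piece
      by_cases hne : bump (‖y‖ / (2 : ℝ) ^ (jb b x)) = 0
      · rw [hne, zero_smul]
      · exact absurd (jb_eq b y _ (jb_mod b x) hne).symm h
    have h2 : piece φ (jb b y) x = 0 := by
      unfold piece
      by_cases hne : bump (‖x‖ / (2 : ℝ) ^ (jb b y)) = 0
      · rw [hne, zero_smul]
      · exact absurd (jb_eq b x _ (jb_mod b y) hne) h
    have h3 : piece φ (jb b x) x - piece φ (jb b y) y =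
        (piece φ (jb b x) x - piece φ (jb b x) y) + (piece φ (jb b y) x - piece φ (jb b y) y) := by
      rw [h1, h2]
      abel
    rw [h3]
    refine (norm_add_le _ _).trans ?_
    have := piece_lip φ hφ (jb b x) x y
    have := piece_lip φ hφ (jb b y) x y
    linarith

theorem block_eq (b : Fin 4) (x : H) (j : ℤ) (hj : j % 4 = (b : ℤ))
    (h1 : (2 : ℝ) ^ j ≤ ‖x‖) (h2 : ‖x‖ ≤ 4 * (2 : ℝ) ^ j) : block φ b x = φ j x := by
  have hpos : (0 : ℝ) < (2 : ℝ) ^ j := by positivity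
  have hb : bump (‖x‖ / (2 : ℝ) ^ j) = 1 :=
    bump_eq_one (by rw [le_div_iff₀ hpos]; linarith) (by rw [div_le_iff₀ hpos]; linarith)
  have : jb b x = j := jb_eq b x j hj (by rw [hb]; exact one_ne_zero)
  unfold block piece
  rw [this, hb, one_smul]

/-- the full map -/
noncomputable def fullMap (x : H) : EuclideanSpace ℝ (Unit ⊕ Fin 4 × Fin n) :=
  WithLp.toLp 2 (Sum.elim (fun _ => ‖x‖) (fun p => block φ p.1 x p.2))

theorem fullMap_norm_sq (x y : H) :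
    ‖fullMap φ x - fullMap φ y‖ ^ 2 =
      (‖x‖ - ‖y‖) ^ 2 + ∑ b : Fin 4, ‖block φ b x - block φ b y‖ ^ 2 := by
  rw [EuclideanSpace.real_norm_sq_eq]
  rw [Fintype.sum_sum_type, Fintype.sum_prod_type]
  simp only [fullMap, EuclideanSpace.real_norm_sq_eq]
  simp

end blocks

end Vale.Agent.P208
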