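import Vale.Agent.P208.Annular

namespace Vale.Agent.P208

variable {H : Type*} [NormedAddCommGroup H] [InnerProductSpace ℝ H]

theorem annular_embeds (X : Set H) (d : ℕ)
    (hX : ∀ j : ℤ, ∃ W : Submodule ℝ H, FiniteDimensional ℝ W ∧ Module.finrank ℝ W ≤ d ∧
      ∀ x ∈ X, (2 : ℝ) ^ j ≤ ‖x‖ → ‖x‖ < (2 : ℝ) ^ (j + 1) → x ∈ W) :
    EmbedsWith X (8 * d + 1) 207 := by
  classical
  choose W hfin hrank hmem using hX
  have hfin' : ∀ j, FiniteDimensional ℝ (W j ⊔ W (j + 1) : Submodule ℝ H) := by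
    intro j
    have := hfin j
    have := hfin (j + 1)
    infer_instance
  have hrank' : ∀ j, Module.finrank ℝ (W j ⊔ W (j + 1) : Submodule ℝ H) ≤ 2 * d := by
    intro j
    have := hfin j
    have := hfin (j + 1)
    refine (Submodule.finrank_add_le_finrank_add_finrank _ _).trans ?_
    have := hrank j
    have := hrank (j + 1)
    omega
  have hex : ∀ j, ∃ φ : H →ₗ[ℝ] EuclideanSpace ℝ (Fin (2 * d)), (∀ v, ‖φ v‖ ≤ ‖v‖) ∧
      ∀ v ∈ (W j ⊔ W (j + 1) : Submodule ℝ H), ‖φ v‖ = ‖v‖ := by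
    intro j
    have := hfin' j
    exact exists_model_map _ _ (hrank' j)
  choose φ hφ1 hφ2 using hex
  have hcard : Fintype.card (Unit ⊕ Fin 4 × Fin (2 * d)) = 8 * d + 1 := by
    simp
    ring
  let e := Fintype.equivFinOfCardEq hcard
  let iso := LinearIsometryEquiv.piLpCongrLeft 2 ℝ ℝ e
  have hupper : ∀ x y : H, ‖fullMap φ x - fullMap φ y‖ ≤ 69 * ‖x - y‖ := by
    intro x y
    have h0 := norm_nonneg (x - y)
    apply abs_le_of_sq_le_sq' _ (by positivity) |>.2
    rw [fullMap_norm_sq]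
    have h1 : (‖x‖ - ‖y‖) ^ 2 ≤ ‖x - y‖ ^ 2 := by
      rw [← sq_abs]
      exact pow_le_pow_left₀ (abs_nonneg _) (abs_norm_sub_norm_le x y) 2
    have h2 : ∀ b : Fin 4, ‖block φ b x - block φ b y‖ ^ 2 ≤ (34 * ‖x - y‖) ^ 2 := fun b =>
      pow_le_pow_left₀ (norm_nonneg _) (block_lip φ hφ1 b x y) 2
    have h3 : ∑ b : Fin 4, ‖block φ b x - block φ b y‖ ^ 2 ≤ ∑ _b : Fin 4, (34 * ‖x - y‖) ^ 2 :=
      Finset.sum_le_sum fun b _ => h2 b
    simp only [Finset.sum_const, Finset.card_univ, Fintype.card_fin, nsmul_eq_mul] at h3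
    push_cast at h3
    nlinarith
  have hnormcoord : ∀ x y : H, |‖x‖ - ‖y‖| ≤ ‖fullMap φ x - fullMap φ y‖ := by
    intro x y
    apply abs_le_of_sq_le_sq' _ (norm_nonneg _) |>.2
    rw [fullMap_norm_sq, sq_abs]
    have : 0 ≤ ∑ b : Fin 4, ‖block φ b x - block φ b y‖ ^ 2 :=
      Finset.sum_nonneg fun b _ => by positivity
    linarith
  have hblockcoord : ∀ (b : Fin 4) (x y : H),
      ‖block φ b x - block φ b y‖ ≤ ‖fullMap φ x - fullMap φ y‖ := by
    intro b x y
    apply abs_le_of_sq_le_sq' _ (norm_nonneg _) |>.2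
    rw [fullMap_norm_sq]
    have h1 : ‖block φ b x - block φ b y‖ ^ 2 ≤ ∑ b : Fin 4, ‖block φ b x - block φ b y‖ ^ 2 :=
      Finset.single_le_sum (f := fun b => ‖block φ b x - block φ b y‖ ^ 2)
        (fun b _ => by positivity) (Finset.mem_univ b)
    have h2 : 0 ≤ (‖x‖ - ‖y‖) ^ 2 := by positivity
    linarith
  have hlower' : ∀ x ∈ X, ∀ y ∈ X, ‖x‖ ≤ ‖y‖ → ‖x - y‖ ≤ 3 * ‖fullMap φ x - fullMap φ y‖ := by
    intro x hx y hy hxy
    by_cases hfar : 2 * ‖x‖ < ‖y‖
    · have h1 := hnormcoord x y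
      have h2 : ‖x - y‖ ≤ ‖x‖ + ‖y‖ := norm_sub_le x y
      have h3 : ‖y‖ - ‖x‖ ≤ |‖x‖ - ‖y‖| := by
        rw [abs_sub_comm]
        exact le_abs_self _
      linarith
    · rw [not_lt] at hfar
      by_cases hx0 : x = 0
      · have hy0 : y = 0 := by
          rw [hx0, norm_zero, mul_zero] at hfar
          exact norm_le_zero_iff.1 hfar
        rw [hx0, hy0]
        simp
      · have hxpos : 0 < ‖x‖ := norm_pos_iff.2 hx0
        set m := Int.log 2 ‖x‖ with hm
        have h3 : ((2 : ℕ) : ℝ) ^ m ≤ ‖x‖ := Int.zpow_log_le_self (by norm_num) hxpos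
        have h4 : ‖x‖ < ((2 : ℕ) : ℝ) ^ (m + 1) := Int.lt_zpow_succ_log_self (by norm_num) _
        push_cast at h3 h4
        have h5 : (2 : ℝ) ^ (m + 1) = 2 * 2 ^ m := by
          rw [zpow_add₀ (by norm_num : (2 : ℝ) ≠ 0)]
          simp
          ring
        have h6 : (2 : ℝ) ^ (m + 1 + 1) = 4 * 2 ^ m := by
          rw [zpow_add₀ (by norm_num : (2 : ℝ) ≠ 0), h5]
          simp
          ring
        have hbl : (m % 4).toNat < 4 := by omega
        let b : Fin 4 := ⟨(m % 4).toNat, hbl⟩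
        have hb : m % 4 = (b : ℤ) := by
          simp only [b]
          omega
        have hbx : block φ b x = φ m x := block_eq φ b x m hb h3 (by linarith)
        have hby : block φ b y = φ m y := block_eq φ b y m hb (by linarith) (by linarith)
        have hxW : x ∈ (W m ⊔ W (m + 1) : Submodule ℝ H) :=
          Submodule.mem_sup_left (hmem m x hx h3 h4)
        have hyW : y ∈ (W m ⊔ W (m + 1) : Submodule ℝ H) := by
          by_cases hys : ‖y‖ < (2 : ℝ) ^ (m + 1)
          · exact Submodule.mem_sup_left (hmem m y hy (by linarith) hys)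
          · exact Submodule.mem_sup_right (hmem (m + 1) y hy (not_lt.1 hys) (by linarith))
        have h7 := hblockcoord b x y
        rw [hbx, hby, ← map_sub, hφ2 m _ (Submodule.sub_mem _ hxW hyW)] at h7
        have := norm_nonneg (fullMap φ x - fullMap φ y)
        linarith
  have hlower : ∀ x ∈ X, ∀ y ∈ X, ‖x - y‖ ≤ 3 * ‖fullMap φ x - fullMap φ y‖ := by
    intro x hx y hy
    rcases le_total ‖x‖ ‖y‖ with h | h
    · exact hlower' x hx y hy h
    · have := hlower' y hy x hx h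
      rwa [norm_sub_rev, norm_sub_rev (fullMap φ y)] at this
  refine ⟨fun x => iso (fullMap φ x.1), 1 / 3, by norm_num, fun x y => ?_⟩
  have hd : dist (iso (fullMap φ x.1)) (iso (fullMap φ y.1)) = ‖fullMap φ x.1 - fullMap φ y.1‖ := by
    rw [iso.dist_map, dist_eq_norm]
  have hd2 : dist x y = ‖x.1 - y.1‖ := by
    rw [Subtype.dist_eq, dist_eq_norm]
  rw [hd, hd2]
  constructor
  · have := hlower x.1 x.2 y.1 y.2
    linarith
  · have := hupper x.1 y.1
    linarith

end Vale.Agent.P208
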