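import Vale.Agent.P208.AnnularThm

namespace Vale.Agent.P208

theorem doubling_iter {E : Type*} [PseudoMetricSpace E] {X : Set E} {lam : ℕ}
    (h : IsDoublingWith X lam) (n : ℕ) : ∀ x ∈ X, ∀ r : ℝ, 0 < r →
    ∃ t : Finset E, (t : Set E) ⊆ X ∧ t.card ≤ lam ^ n ∧
      X ∩ Metric.ball x r ⊆ ⋃ c ∈ t, Metric.ball c (r / 2 ^ n) := by
  classical
  induction n with
  | zero =>
    intro x hx r _
    refine ⟨{x}, by simpa using hx, by simp, ?_⟩
    intro y hy
    simpa using hy.2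
  | succ n ih =>
    intro x hx r hr
    obtain ⟨t, ht1, ht2, ht3⟩ := ih x hx r hr
    have hr' : 0 < r / 2 ^ n := by positivity
    have hex : ∀ c : E, ∃ s : Finset E, c ∈ X → ((s : Set E) ⊆ X ∧ s.card ≤ lam ∧
        X ∩ Metric.ball c (r / 2 ^ n) ⊆ ⋃ c' ∈ s, Metric.ball c' (r / 2 ^ n / 2)) := by
      intro c
      by_cases hc : c ∈ X
      · obtain ⟨s, hs⟩ := h c hc _ hr'
        exact ⟨s, fun _ => hs⟩
      · exact ⟨∅, fun h => absurd h hc⟩
    choose s hs using hex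
    refine ⟨t.biUnion s, ?_, ?_, ?_⟩
    · intro y hy
      rw [Finset.coe_biUnion, Set.mem_iUnion₂] at hy
      obtain ⟨c, hc, hy⟩ := hy
      exact (hs c (ht1 hc)).1 hy
    · calc (t.biUnion s).card ≤ ∑ c ∈ t, (s c).card := Finset.card_biUnion_le
        _ ≤ ∑ _c ∈ t, lam := Finset.sum_le_sum fun c hc => (hs c (ht1 hc)).2.1
        _ = t.card * lam := by rw [Finset.sum_const, smul_eq_mul]
        _ ≤ lam ^ n * lam := Nat.mul_le_mul_right _ ht2
        _ = lam ^ (n + 1) := (pow_succ _ _).symm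
    · intro y hy
      have h1 := ht3 hy
      rw [Set.mem_iUnion₂] at h1
      obtain ⟨c, hc, hyc⟩ := h1
      have h2 := (hs c (ht1 hc)).2.2 ⟨hy.1, hyc⟩
      rw [Set.mem_iUnion₂] at h2
      obtain ⟨c', hc', hyc'⟩ := h2
      rw [Set.mem_iUnion₂]
      refine ⟨c', Finset.mem_biUnion.2 ⟨c, hc, hc'⟩, ?_⟩
      have : r / 2 ^ (n + 1) = r / 2 ^ n / 2 := by
        rw [pow_succ]
        field_simp
      rw [this]
      exact hyc'

variable {H : Type*} [NormedAddCommGroup H] [InnerProductSpace ℝ H]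

theorem finrank_finset_sup_le {ι : Type*} (V : ι → Submodule ℝ H) (d : ℕ)
    (hfin : ∀ i, FiniteDimensional ℝ (V i)) (hd : ∀ i, Module.finrank ℝ (V i) ≤ d)
    (s : Finset ι) :
    FiniteDimensional ℝ (s.sup V : Submodule ℝ H) ∧
      Module.finrank ℝ (s.sup V : Submodule ℝ H) ≤ s.card * d := by
  classical
  induction s using Finset.induction_on with
  | empty =>
    simp only [Finset.card_empty, zero_mul, nonpos_iff_eq_zero]
    exact ⟨inferInstance, finrank_bot ℝ H⟩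
  | insert i s hi ih =>
    obtain ⟨h1, h2⟩ := ih
    have := hfin i
    rw [Finset.sup_insert, Finset.card_insert_of_notMem hi]
    refine ⟨inferInstance, (Submodule.finrank_add_le_finrank_add_finrank _ _).trans ?_⟩
    have := hd i
    nlinarith

theorem annulus_index_finite {ι : Type*} (V : ι → Submodule ℝ H)
    (horth : ∀ i j, i ≠ j → V i ⟂ V j) {X : Set H} {lam : ℕ} (hdoub : IsDoublingWith X lam)
    (j : ℤ) :
    ∃ s : Finset ι, s.card ≤ lam ^ 3 ∧ ∀ i, (∃ x ∈ X, x ∈ V i ∧ (2 : ℝ) ^ j ≤ ‖x‖ ∧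
      ‖x‖ < (2 : ℝ) ^ (j + 1)) → i ∈ s := by
  classical
  let I : Set ι := {i | ∃ x ∈ X, x ∈ V i ∧ (2 : ℝ) ^ j ≤ ‖x‖ ∧ ‖x‖ < (2 : ℝ) ^ (j + 1)}
  by_cases hI : I = ∅
  · refine ⟨∅, by simp, fun i hi => ?_⟩
    have : i ∈ I := hi
    rw [hI] at this
    exact absurd this (Set.notMem_empty i)
  · obtain ⟨i0, hi0⟩ := Set.nonempty_iff_ne_empty.2 hI
    have hpos : (0 : ℝ) < (2 : ℝ) ^ j := by positivity
    have h2 : (2 : ℝ) ^ (j + 1) = 2 * 2 ^ j := by
      rw [zpow_add₀ (by norm_num : (2 : ℝ) ≠ 0)]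
      simp
      ring
    have hrep : ∀ i : I, ∃ x ∈ X, x ∈ V i ∧ (2 : ℝ) ^ j ≤ ‖x‖ ∧ ‖x‖ < (2 : ℝ) ^ (j + 1) :=
      fun i => i.2
    choose x hxX hxV hx1 hx2 using hrep
    obtain ⟨t, -, ht2, ht3⟩ := doubling_iter hdoub 3 (x ⟨i0, hi0⟩) (hxX _) (4 * 2 ^ j)
      (by positivity)
    have hc : ∀ i : I, ∃ c ∈ t, x i ∈ Metric.ball c (4 * 2 ^ j / 2 ^ 3) := by
      intro i
      have : x i ∈ X ∩ Metric.ball (x ⟨i0, hi0⟩) (4 * 2 ^ j) := by
        refine ⟨hxX i, ?_⟩
        rw [Metric.mem_ball, dist_eq_norm]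
        have h3 := norm_sub_le (x i) (x ⟨i0, hi0⟩)
        have h4 := hx2 i
        have h5 := hx2 ⟨i0, hi0⟩
        linarith
      have := ht3 this
      rw [Set.mem_iUnion₂] at this
      obtain ⟨c, hc, h⟩ := this
      exact ⟨c, hc, h⟩
    choose c hct hcx using hc
    have hinj : Function.Injective c := by
      intro i i' hii
      by_contra hne
      have hne' : (i : ι) ≠ i' := fun h => hne (Subtype.ext h)
      have hort : inner ℝ (x i) (x i') = 0 :=
        (Submodule.isOrtho_iff_inner_eq.1 (horth _ _ hne')) _ (hxV i) _ (hxV i')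
      have h3 : ‖x i - x i'‖ ^ 2 = ‖x i‖ ^ 2 + ‖x i'‖ ^ 2 := by
        rw [@norm_sub_sq_real, hort]
        ring
      have h4 : dist (x i) (x i') < 2 ^ j := by
        have h5 := hcx i
        have h6 := hcx i'
        rw [← hii] at h6
        rw [Metric.mem_ball] at h5 h6
        have h7 := dist_triangle_right (x i) (x i') (c i)
        have h8 : (4 : ℝ) * 2 ^ j / 2 ^ 3 = 2 ^ j / 2 := by ring
        rw [h8] at h5 h6
        linarith
      rw [dist_eq_norm] at h4
      have h9 := hx1 i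
      have h10 := hx1 i'
      have h11 := norm_nonneg (x i - x i')
      nlinarith
    have hfinI : Finite I := Finite.of_injective (fun i => (⟨c i, hct i⟩ : t)) (by
      intro i i' h
      exact hinj (congrArg Subtype.val h))
    have hIfin : I.Finite := Set.toFinite I
    refine ⟨hIfin.toFinset, ?_, fun i hi => hIfin.mem_toFinset.2 hi⟩
    have hcard : hIfin.toFinset.card ≤ t.card := by
      refine Finset.card_le_card_of_injOn (fun i => if h : i ∈ I then c ⟨i, h⟩ else x ⟨i0, hi0⟩)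
        ?_ ?_
      · intro i hi
        have hi' : i ∈ I := hIfin.mem_toFinset.1 hi
        simp only [dif_pos hi']
        exact hct _
      · intro i hi i' hi' h
        have h1 : i ∈ I := hIfin.mem_toFinset.1 hi
        have h2 : i' ∈ I := hIfin.mem_toFinset.1 hi'
        simp only [dif_pos h1, dif_pos h2] at h
        exact congrArg Subtype.val (hinj h)
    exact hcard.trans ht2

theorem bouquet_embeds {ι : Type*} (V : ι → Submodule ℝ H) (d : ℕ)
    (hfin : ∀ i, FiniteDimensional ℝ (V i)) (hd : ∀ i, Module.finrank ℝ (V i) ≤ d)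
    (horth : ∀ i j, i ≠ j → V i ⟂ V j) {X : Set H} (hX : X ⊆ ⋃ i, (V i : Set H)) {lam : ℕ}
    (hdoub : IsDoublingWith X lam) : EmbedsWith X (8 * (lam ^ 3 * d) + 1) 207 := by
  apply annular_embeds
  intro j
  obtain ⟨s, hs1, hs2⟩ := annulus_index_finite V horth hdoub j
  obtain ⟨h1, h2⟩ := finrank_finset_sup_le V d hfin hd s
  refine ⟨s.sup V, h1, h2.trans (Nat.mul_le_mul_right _ hs1), fun x hx hx1 hx2 => ?_⟩
  obtain ⟨i, hi⟩ := Set.mem_iUnion.1 (hX hx)
  exact (Finset.le_sup (f := V) (hs2 i ⟨x, hx, hi, hx1, hx2⟩)) hi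

end Vale.Agent.P208
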