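import Vale.Agent.P208.Defs

namespace Vale.Agent.P208

/-- piecewise linear bump: `0` outside `(1/2, 8)`, `1` on `[1, 4]`. -/
noncomputable def bump (s : ℝ) : ℝ := max 0 (min 1 (min (2 * s - 1) (2 - s / 4)))

theorem bump_nonneg (s : ℝ) : 0 ≤ bump s := le_max_left _ _

theorem bump_le_one (s : ℝ) : bump s ≤ 1 :=
  max_le zero_le_one (min_le_left _ _)

theorem bump_eq_one {s : ℝ} (h1 : 1 ≤ s) (h2 : s ≤ 4) : bump s = 1 := by
  unfold bump
  have h3 : (1 : ℝ) ≤ min (2 * s - 1) (2 - s / 4) := le_min (by linarith) (by linarith)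
  rw [min_eq_left h3]
  exact max_eq_right zero_le_one

theorem bump_eq_zero_of_le {s : ℝ} (h : s ≤ 1 / 2) : bump s = 0 := by
  unfold bump
  apply max_eq_left
  exact (min_le_right _ _).trans ((min_le_left _ _).trans (by linarith))

theorem bump_eq_zero_of_ge {s : ℝ} (h : 8 ≤ s) : bump s = 0 := by
  unfold bump
  apply max_eq_left
  exact (min_le_right _ _).trans ((min_le_right _ _).trans (by linarith))

theorem bump_lip (s t : ℝ) : |bump s - bump t| ≤ 2 * |s - t| := by
  unfold bump
  refine (abs_max_sub_max_le_max _ _ _ _).trans (max_le (by simp) ?_)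
  refine (abs_min_sub_min_le_max _ _ _ _).trans (max_le (by simp) ?_)
  refine (abs_min_sub_min_le_max _ _ _ _).trans (max_le ?_ ?_)
  · have : 2 * s - 1 - (2 * t - 1) = 2 * (s - t) := by ring
    rw [this, abs_mul, abs_two]
  · have : 2 - s / 4 - (2 - t / 4) = (-1 / 4) * (s - t) := by ring
    rw [this, abs_mul]
    have h4 : |(-1 / 4 : ℝ)| = 1 / 4 := by norm_num [abs_of_neg]
    rw [h4]
    nlinarith [abs_nonneg (s - t)]

end Vale.Agent.P208
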