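import Mathlib

namespace Vale.Agent.P208

/-- `X` is doubling with constant at most `lam`: every ball of `X` (centre in `X`, radius `r > 0`)
is covered by at most `lam` balls of radius `r / 2` with centres in `X`. -/
def IsDoublingWith {E : Type*} [PseudoMetricSpace E] (X : Set E) (lam : ℕ) : Prop :=
  ∀ x ∈ X, ∀ r : ℝ, 0 < r → ∃ t : Finset E, (t : Set E) ⊆ X ∧ t.card ≤ lam ∧
    X ∩ Metric.ball x r ⊆ ⋃ c ∈ t, Metric.ball c (r / 2)

/-- `X` admits a bi-Lipschitz embedding into `R^k` with distortion at most `D`. -/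
def EmbedsWith {E : Type*} [PseudoMetricSpace E] (X : Set E) (k : ℕ) (D : ℝ) : Prop :=
  ∃ (f : X → EuclideanSpace ℝ (Fin k)) (a : ℝ), 0 < a ∧ ∀ x y : X,
    a * dist x y ≤ dist (f x) (f y) ∧ dist (f x) (f y) ≤ D * a * dist x y

end Vale.Agent.P208
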