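import Vale.Agent.P208.Bump

namespace Vale.Agent.P208

/-- scale index selected by the residue `b` at the height `t` -/
noncomputable def jr (b : Fin 4) (t : ℝ) : ℤ :=
  Int.log 2 t + 1 - ((Int.log 2 t + 1 - (b : ℤ)) % 4)

theorem jr_mod (b : Fin 4) (t : ℝ) : jr b t % 4 = (b : ℤ) := by
  unfold jr
  have := b.2
  omega

theorem jr_eq (b : Fin 4) (t : ℝ) (j : ℤ) (hj : j % 4 = (b : ℤ))
    (hne : bump (t / (2 : ℝ) ^ j) ≠ 0) : jr b t = j := by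
  have hpos : (0 : ℝ) < (2 : ℝ) ^ j := by positivity
  have h1 : 1 / 2 < t / (2 : ℝ) ^ j := by
    by_contra h
    exact hne (bump_eq_zero_of_le (not_lt.1 h))
  have h2 : t / (2 : ℝ) ^ j < 8 := by
    by_contra h
    exact hne (bump_eq_zero_of_ge (not_lt.1 h))
  rw [lt_div_iff₀ hpos] at h1
  rw [div_lt_iff₀ hpos] at h2
  have hx : 0 < t := lt_trans (by positivity) h1
  have h3 : ((2 : ℕ) : ℝ) ^ Int.log 2 t ≤ t := Int.zpow_log_le_self (by norm_num) hx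
  have h4 : t < ((2 : ℕ) : ℝ) ^ (Int.log 2 t + 1) := Int.lt_zpow_succ_log_self (by norm_num) _
  push_cast at h3 h4
  have h5 : (2 : ℝ) ^ (j - 1) < (2 : ℝ) ^ (Int.log 2 t + 1) := by
    have : (2 : ℝ) ^ (j - 1) = 1 / 2 * 2 ^ j := by
      rw [zpow_sub₀ (by norm_num : (2 : ℝ) ≠ 0)]
      simp
      ring
    rw [this]
    exact lt_trans h1 h4
  have h6 : (2 : ℝ) ^ (Int.log 2 t) < (2 : ℝ) ^ (j + 3) := by
    have : (2 : ℝ) ^ (j + 3) = 8 * 2 ^ j := by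
      rw [zpow_add₀ (by norm_num : (2 : ℝ) ≠ 0)]
      norm_num
      ring
    rw [this]
    exact lt_of_le_of_lt h3 h2
  rw [zpow_lt_zpow_iff_right₀ (by norm_num : (1 : ℝ) < 2)] at h5 h6
  unfold jr
  have := b.2
  omega

/-- grid index selected by the residue `a` at the position `s` -/
noncomputable def nr (a : Fin 5) (s : ℝ) : ℤ :=
  ⌊s⌋ + 1 - ((⌊s⌋ + 1 - (a : ℤ)) % 5)

theorem nr_mod (a : Fin 5) (s : ℝ) : nr a s % 5 = (a : ℤ) := by
  unfold nr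
  have := a.2
  omega

theorem nr_eq (a : Fin 5) (s : ℝ) (n : ℤ) (hn : n % 5 = (a : ℤ)) (h1 : (n : ℝ) - 1 < s)
    (h2 : s < (n : ℝ) + 4) : nr a s = n := by
  have h3 : (⌊s⌋ : ℝ) ≤ s := Int.floor_le s
  have h4 : s < (⌊s⌋ : ℝ) + 1 := Int.lt_floor_add_one s
  have h5 : ((n - 1 : ℤ) : ℝ) < ((⌊s⌋ + 1 : ℤ) : ℝ) := by
    push_cast
    linarith
  have h6 : ((⌊s⌋ : ℤ) : ℝ) < ((n + 4 : ℤ) : ℝ) := by
    push_cast
    linarith
  rw [Int.cast_lt] at h5 h6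
  unfold nr
  have := a.2
  omega

end Vale.Agent.P208
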