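import Vale.Agent.P208.Glue1

namespace Vale.Agent.P208

variable {E : Type*} [PseudoMetricSpace E] {m : ℕ}

/-- centre of the cube `(j, n)` -/
noncomputable def cen (j : ℤ) (n : Fin m → ℤ) : Fin m → ℝ :=
  fun i => (2 : ℝ) ^ j * ((n i : ℝ) + 3 / 2)

/-- horizontal cut-off -/
noncomputable def cutv (g : E → Fin m → ℝ) (j : ℤ) (n : Fin m → ℤ) (x : E) : ℝ :=
  max 0 (min 1 (5 / 2 - dist (g x) (cen j n) / (2 : ℝ) ^ j))

/-- cut-off of the cube `(j, n)` -/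
noncomputable def cut (g : E → Fin m → ℝ) (δ : E → ℝ) (j : ℤ) (n : Fin m → ℤ) (x : E) : ℝ :=
  min (bump (δ x / (2 : ℝ) ^ j)) (cutv g j n x)

theorem cutv_nonneg (g : E → Fin m → ℝ) (j : ℤ) (n : Fin m → ℤ) (x : E) : 0 ≤ cutv g j n x :=
  le_max_left _ _

theorem cut_nonneg (g : E → Fin m → ℝ) (δ : E → ℝ) (j : ℤ) (n : Fin m → ℤ) (x : E) :
    0 ≤ cut g δ j n x := le_min (bump_nonneg _) (cutv_nonneg _ _ _ _)

theorem cut_le_one (g : E → Fin m → ℝ) (δ : E → ℝ) (j : ℤ) (n : Fin m → ℤ) (x : E) :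
    cut g δ j n x ≤ 1 := (min_le_left _ _).trans (bump_le_one _)

theorem cut_eq_one (g : E → Fin m → ℝ) (δ : E → ℝ) (j : ℤ) (n : Fin m → ℤ) (x : E)
    (h1 : (2 : ℝ) ^ j ≤ δ x) (h2 : δ x ≤ 4 * (2 : ℝ) ^ j)
    (h3 : dist (g x) (cen j n) ≤ 3 / 2 * (2 : ℝ) ^ j) : cut g δ j n x = 1 := by
  have hpos : (0 : ℝ) < (2 : ℝ) ^ j := by positivity
  have hb : bump (δ x / (2 : ℝ) ^ j) = 1 :=
    bump_eq_one (by rw [le_div_iff₀ hpos]; linarith) (by rw [div_le_iff₀ hpos]; linarith)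
  have hv : cutv g j n x = 1 := by
    unfold cutv
    have : dist (g x) (cen j n) / (2 : ℝ) ^ j ≤ 3 / 2 := by
      rw [div_le_iff₀ hpos]; exact h3
    rw [min_eq_left (by linarith)]
    exact max_eq_right zero_le_one
  unfold cut
  rw [hb, hv, min_self]

theorem cut_ne_zero (g : E → Fin m → ℝ) (δ : E → ℝ) (j : ℤ) (n : Fin m → ℤ) (x : E)
    (h : cut g δ j n x ≠ 0) :
    bump (δ x / (2 : ℝ) ^ j) ≠ 0 ∧ (2 : ℝ) ^ j / 2 < δ x ∧ δ x < 8 * (2 : ℝ) ^ j ∧
      dist (g x) (cen j n) < 5 / 2 * (2 : ℝ) ^ j := by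
  have hpos : (0 : ℝ) < (2 : ℝ) ^ j := by positivity
  have hb : bump (δ x / (2 : ℝ) ^ j) ≠ 0 := by
    intro h0
    apply h
    unfold cut
    rw [h0]
    exact min_eq_left (cutv_nonneg _ _ _ _)
  have hv : cutv g j n x ≠ 0 := by
    intro h0
    apply h
    unfold cut
    rw [h0]
    exact min_eq_right (bump_nonneg _)
  refine ⟨hb, ?_, ?_, ?_⟩
  · by_contra hc
    rw [not_lt] at hc
    exact hb (bump_eq_zero_of_le (by rw [div_le_iff₀ hpos]; linarith))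
  · by_contra hc
    rw [not_lt] at hc
    exact hb (bump_eq_zero_of_ge (by rw [le_div_iff₀ hpos]; linarith))
  · by_contra hc
    rw [not_lt] at hc
    apply hv
    unfold cutv
    apply max_eq_left
    refine (min_le_right _ _).trans ?_
    have : 5 / 2 ≤ dist (g x) (cen j n) / (2 : ℝ) ^ j := by
      rw [le_div_iff₀ hpos]; exact hc
    linarith

theorem cut_lip (g : E → Fin m → ℝ) (δ : E → ℝ) {A : ℝ}
    (hA : ∀ x y, dist (g x) (g y) ≤ A * dist x y) (hδ : ∀ x y, |δ x - δ y| ≤ dist x y)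
    (j : ℤ) (n : Fin m → ℤ) (x y : E) :
    |cut g δ j n x - cut g δ j n y| ≤ (2 + A) * dist x y / (2 : ℝ) ^ j := by
  have hpos : (0 : ℝ) < (2 : ℝ) ^ j := by positivity
  have hd : 0 ≤ dist x y := dist_nonneg
  have hA0 : 0 ≤ A * dist x y := le_trans dist_nonneg (hA x y)
  have hnn : 0 ≤ (2 + A) * dist x y / (2 : ℝ) ^ j := by
    apply div_nonneg _ hpos.le
    nlinarith
  unfold cut
  refine (abs_min_sub_min_le_max _ _ _ _).trans (max_le ?_ ?_)
  · refine (bump_lip _ _).trans ?_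
    have : δ x / (2 : ℝ) ^ j - δ y / (2 : ℝ) ^ j = (δ x - δ y) / (2 : ℝ) ^ j := by ring
    rw [this, abs_div, abs_of_pos hpos, ← mul_div_assoc]
    apply div_le_div_of_nonneg_right _ hpos.le
    have := hδ x y
    nlinarith
  · unfold cutv
    refine (abs_max_sub_max_le_max _ _ _ _).trans (max_le (by simpa using hnn) ?_)
    refine (abs_min_sub_min_le_max _ _ _ _).trans (max_le (by simpa using hnn) ?_)
    have : 5 / 2 - dist (g x) (cen j n) / (2 : ℝ) ^ j - (5 / 2 - dist (g y) (cen j n) / (2 : ℝ) ^ j)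
        = (dist (g y) (cen j n) - dist (g x) (cen j n)) / (2 : ℝ) ^ j := by ring
    rw [this, abs_div, abs_of_pos hpos]
    apply div_le_div_of_nonneg_right _ hpos.le
    have h1 : |dist (g y) (cen j n) - dist (g x) (cen j n)| ≤ dist (g y) (g x) :=
      abs_dist_sub_le _ _ _
    have h2 := hA x y
    rw [dist_comm (g y) (g x)] at h1
    nlinarith

/-- the cube selected by the colour `(b, a)` at the point `x` -/
noncomputable def selJ (δ : E → ℝ) (b : Fin 4) (x : E) : ℤ := jr b (δ x)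

noncomputable def selN (g : E → Fin m → ℝ) (δ : E → ℝ) (b : Fin 4) (a : Fin m → Fin 5) (x : E) :
    Fin m → ℤ := fun i => nr (a i) (g x i / (2 : ℝ) ^ (selJ δ b x))

theorem sel_eq (g : E → Fin m → ℝ) (δ : E → ℝ) (b : Fin 4) (a : Fin m → Fin 5) (x : E)
    (j : ℤ) (n : Fin m → ℤ) (hj : j % 4 = (b : ℤ)) (hn : ∀ i, n i % 5 = (a i : ℤ))
    (h : cut g δ j n x ≠ 0) : selJ δ b x = j ∧ selN g δ b a x = n := by
  obtain ⟨h1, -, -, h4⟩ := cut_ne_zero g δ j n x h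
  have hJ : selJ δ b x = j := jr_eq b (δ x) j hj h1
  refine ⟨hJ, ?_⟩
  funext i
  unfold selN
  rw [hJ]
  have hpos : (0 : ℝ) < (2 : ℝ) ^ j := by positivity
  have h5 : dist (g x i) (cen j n i) < 5 / 2 * (2 : ℝ) ^ j :=
    lt_of_le_of_lt (dist_le_pi_dist _ _ i) h4
  rw [Real.dist_eq, abs_lt] at h5
  unfold cen at h5
  apply nr_eq _ _ _ (hn i)
  · rw [lt_div_iff₀ hpos]
    nlinarith [h5.1]
  · rw [div_lt_iff₀ hpos]
    nlinarith [h5.2]

end Vale.Agent.P208
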