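import Vale.Agent.P208.Glue2

namespace Vale.Agent.P208

variable {E : Type*} [PseudoMetricSpace E] {m k : ℕ}

/-- the part of `X` lying over the enlarged cube `(j, n)` -/
def reg (g : E → Fin m → ℝ) (δ : E → ℝ) (X : Set E) (j : ℤ) (n : Fin m → ℤ) : Set E :=
  {x | x ∈ X ∧ (2 : ℝ) ^ j / 2 < δ x ∧ δ x < 8 * (2 : ℝ) ^ j ∧
    dist (g x) (cen j n) < 5 / 2 * (2 : ℝ) ^ j}

noncomputable def gpiece (g : E → Fin m → ℝ) (δ : E → ℝ)
    (G : ℤ → (Fin m → ℤ) → E → EuclideanSpace ℝ (Fin k)) (j : ℤ) (n : Fin m → ℤ) (x : E) :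
    EuclideanSpace ℝ (Fin k) := cut g δ j n x • G j n x

noncomputable def gblock (g : E → Fin m → ℝ) (δ : E → ℝ)
    (G : ℤ → (Fin m → ℤ) → E → EuclideanSpace ℝ (Fin k)) (b : Fin 4) (a : Fin m → Fin 5) (x : E) :
    EuclideanSpace ℝ (Fin k) := gpiece g δ G (selJ δ b x) (selN g δ b a x) x

theorem mem_reg_of_cut_ne_zero (g : E → Fin m → ℝ) (δ : E → ℝ) (X : Set E) (j : ℤ)
    (n : Fin m → ℤ) (x : E) (hx : x ∈ X) (h : cut g δ j n x ≠ 0) : x ∈ reg g δ X j n := by
  obtain ⟨-, h2, h3, h4⟩ := cut_ne_zero g δ j n x h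
  exact ⟨hx, h2, h3, h4⟩

theorem gpiece_lip (g : E → Fin m → ℝ) (δ : E → ℝ) (X : Set E) {A C D : ℝ}
    (hA : ∀ x y, dist (g x) (g y) ≤ A * dist x y) (hδ : ∀ x y, |δ x - δ y| ≤ dist x y)
    (hA0 : 0 ≤ A) (hC0 : 0 ≤ C) (hD0 : 0 ≤ D)
    (G : ℤ → (Fin m → ℤ) → E → EuclideanSpace ℝ (Fin k)) (j : ℤ) (n : Fin m → ℤ)
    (hG1 : ∀ x ∈ reg g δ X j n, ∀ y ∈ reg g δ X j n, ‖G j n x - G j n y‖ ≤ D * dist x y)
    (hG2 : ∀ x ∈ reg g δ X j n, ‖G j n x‖ ≤ D * C * (2 : ℝ) ^ j)
    (x y : E) (hx : x ∈ X) (hy : y ∈ X) :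
    ‖gpiece g δ G j n x - gpiece g δ G j n y‖ ≤ D * (1 + (2 + A) * C) * dist x y := by
  have hpos : (0 : ℝ) < (2 : ℝ) ^ j := by positivity
  have hd : 0 ≤ dist x y := dist_nonneg
  have hsecond : ∀ x y : E, y ∈ reg g δ X j n →
      |cut g δ j n x - cut g δ j n y| * ‖G j n y‖ ≤ D * ((2 + A) * C) * dist x y := by
    intro x y hy
    have h1 := cut_lip g δ hA hδ j n x y
    have h2 := hG2 y hy
    have hd : 0 ≤ dist x y := dist_nonneg
    calc |cut g δ j n x - cut g δ j n y| * ‖G j n y‖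
        ≤ ((2 + A) * dist x y / (2 : ℝ) ^ j) * (D * C * (2 : ℝ) ^ j) :=
          mul_le_mul h1 h2 (norm_nonneg _) (by positivity)
      _ = D * ((2 + A) * C) * dist x y := by field_simp
  have hnn : 0 ≤ D * dist x y := by positivity
  unfold gpiece
  by_cases hcy : cut g δ j n y = 0
  · by_cases hcx : cut g δ j n x = 0
    · rw [hcx, hcy]
      simp
      positivity
    · have hxr := mem_reg_of_cut_ne_zero g δ X j n x hx hcx
      have h1 := hsecond y x hxr
      rw [hcy, zero_smul, sub_zero, norm_smul, Real.norm_eq_abs]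
      rw [hcy, zero_sub, abs_neg, dist_comm] at h1
      nlinarith
  · have hyr := mem_reg_of_cut_ne_zero g δ X j n y hy hcy
    by_cases hcx : cut g δ j n x = 0
    · have h1 := hsecond x y hyr
      rw [hcx, zero_smul, zero_sub, norm_neg, norm_smul, Real.norm_eq_abs]
      rw [hcx, zero_sub, abs_neg] at h1
      nlinarith
    · have hxr := mem_reg_of_cut_ne_zero g δ X j n x hx hcx
      have h1 : cut g δ j n x • G j n x - cut g δ j n y • G j n y =
          cut g δ j n x • (G j n x - G j n y) + (cut g δ j n x - cut g δ j n y) • G j n y := by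
        rw [smul_sub, sub_smul]
        abel
      rw [h1]
      refine (norm_add_le _ _).trans ?_
      rw [norm_smul, norm_smul, Real.norm_eq_abs, Real.norm_eq_abs,
        abs_of_nonneg (cut_nonneg _ _ _ _ _)]
      have h2 : cut g δ j n x * ‖G j n x - G j n y‖ ≤ D * dist x y := by
        calc cut g δ j n x * ‖G j n x - G j n y‖ ≤ 1 * (D * dist x y) :=
              mul_le_mul (cut_le_one _ _ _ _ _) (hG1 x hxr y hyr) (norm_nonneg _) zero_le_one
          _ = D * dist x y := one_mul _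
      have h3 := hsecond x y hyr
      nlinarith

theorem gblock_lip (g : E → Fin m → ℝ) (δ : E → ℝ) (X : Set E) {Lp : ℝ}
    (G : ℤ → (Fin m → ℤ) → E → EuclideanSpace ℝ (Fin k))
    (hp : ∀ j n, ∀ x ∈ X, ∀ y ∈ X, ‖gpiece g δ G j n x - gpiece g δ G j n y‖ ≤ Lp * dist x y)
    (b : Fin 4) (a : Fin m → Fin 5) (x y : E) (hx : x ∈ X) (hy : y ∈ X) :
    ‖gblock g δ G b a x - gblock g δ G b a y‖ ≤ 2 * Lp * dist x y := by
  have hmodJ : ∀ z : E, selJ δ b z % 4 = (b : ℤ) := fun z => jr_mod b _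
  have hmodN : ∀ z : E, ∀ i, selN g δ b a z i % 5 = (a i : ℤ) := fun z i => nr_mod (a i) _
  have h0 : 0 ≤ Lp * dist x y := le_trans (norm_nonneg _) (hp 0 0 x hx y hy)
  unfold gblock
  by_cases h : selJ δ b x = selJ δ b y ∧ selN g δ b a x = selN g δ b a y
  · rw [h.1, h.2]
    have := hp (selJ δ b y) (selN g δ b a y) x hx y hy
    linarith
  · have h1 : gpiece g δ G (selJ δ b x) (selN g δ b a x) y = 0 := by
      unfold gpiece
      by_cases hne : cut g δ (selJ δ b x) (selN g δ b a x) y = 0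
      · rw [hne, zero_smul]
      · have := sel_eq g δ b a y _ _ (hmodJ x) (hmodN x) hne
        exact absurd ⟨this.1.symm, this.2.symm⟩ h
    have h2 : gpiece g δ G (selJ δ b y) (selN g δ b a y) x = 0 := by
      unfold gpiece
      by_cases hne : cut g δ (selJ δ b y) (selN g δ b a y) x = 0
      · rw [hne, zero_smul]
      · exact absurd (sel_eq g δ b a x _ _ (hmodJ y) (hmodN y) hne) h
    have h3 : gpiece g δ G (selJ δ b x) (selN g δ b a x) x -
        gpiece g δ G (selJ δ b y) (selN g δ b a y) y =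
        (gpiece g δ G (selJ δ b x) (selN g δ b a x) x -
          gpiece g δ G (selJ δ b x) (selN g δ b a x) y) +
        (gpiece g δ G (selJ δ b y) (selN g δ b a y) x -
          gpiece g δ G (selJ δ b y) (selN g δ b a y) y) := by
      rw [h1, h2]
      abel
    rw [h3]
    refine (norm_add_le _ _).trans ?_
    have := hp (selJ δ b x) (selN g δ b a x) x hx y hy
    have := hp (selJ δ b y) (selN g δ b a y) x hx y hy
    linarith

theorem gblock_eq (g : E → Fin m → ℝ) (δ : E → ℝ)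
    (G : ℤ → (Fin m → ℤ) → E → EuclideanSpace ℝ (Fin k)) (b : Fin 4) (a : Fin m → Fin 5) (x : E)
    (j : ℤ) (n : Fin m → ℤ) (hj : j % 4 = (b : ℤ)) (hn : ∀ i, n i % 5 = (a i : ℤ))
    (h : cut g δ j n x = 1) : gblock g δ G b a x = G j n x := by
  obtain ⟨h1, h2⟩ := sel_eq g δ b a x j n hj hn (by rw [h]; exact one_ne_zero)
  unfold gblock gpiece
  rw [h1, h2, h, one_smul]

end Vale.Agent.P208
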