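import Vale.Agent.P208.Glue3

namespace Vale.Agent.P208

variable {E : Type*} [PseudoMetricSpace E] {m k : ℕ}

theorem exists_local (S : Set E) {D : ℝ} (hD : 0 ≤ D) (h : EmbedsWith S k D) :
    ∃ G : E → EuclideanSpace ℝ (Fin k),
      (∀ x ∈ S, ∀ y ∈ S, dist x y ≤ ‖G x - G y‖ ∧ ‖G x - G y‖ ≤ D * dist x y) ∧
      ∀ R : ℝ, (∀ x ∈ S, ∀ y ∈ S, dist x y ≤ R) → ∀ x ∈ S, ‖G x‖ ≤ D * R := by
  classical
  obtain ⟨f, a, ha, hf⟩ := h
  by_cases hne : S.Nonempty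
  · obtain ⟨x0, hx0⟩ := hne
    let G : E → EuclideanSpace ℝ (Fin k) := fun x =>
      if hx : x ∈ S then (1 / a) • (f ⟨x, hx⟩ - f ⟨x0, hx0⟩) else 0
    have hG : ∀ x ∈ S, ∀ y ∈ S, dist x y ≤ ‖G x - G y‖ ∧ ‖G x - G y‖ ≤ D * dist x y := by
      intro x hx y hy
      have h1 : G x - G y = (1 / a) • (f ⟨x, hx⟩ - f ⟨y, hy⟩) := by
        simp only [G, dif_pos hx, dif_pos hy]
        rw [← smul_sub]
        congr 1
        abel
      have h2 : ‖G x - G y‖ = (1 / a) * dist (f ⟨x, hx⟩) (f ⟨y, hy⟩) := by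
        rw [h1, norm_smul, Real.norm_eq_abs, abs_of_pos (by positivity), dist_eq_norm]
      obtain ⟨h3, h4⟩ := hf ⟨x, hx⟩ ⟨y, hy⟩
      have h5 : dist (⟨x, hx⟩ : S) ⟨y, hy⟩ = dist x y := rfl
      rw [h5] at h3 h4
      rw [h2]
      constructor
      · rw [one_div, ← div_eq_inv_mul, le_div_iff₀ ha]
        linarith
      · rw [one_div, ← div_eq_inv_mul, div_le_iff₀ ha]
        linarith
    refine ⟨G, hG, fun R hR x hx => ?_⟩
    have h0 : G x0 = 0 := by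
      simp only [G, dif_pos hx0, sub_self, smul_zero]
    have h1 := (hG x hx x0 hx0).2
    rw [h0, sub_zero] at h1
    exact h1.trans (mul_le_mul_of_nonneg_left (hR x hx x0 hx0) hD)
  · refine ⟨fun _ => 0, fun x hx => absurd ⟨x, hx⟩ hne, fun R _ x hx => absurd ⟨x, hx⟩ hne⟩

theorem dist_le_spine (g : E → Fin m → ℝ) (δ : E → ℝ) (π : E → E) {A B : ℝ}
    (hA : ∀ x y, dist (g x) (g y) ≤ A * dist x y) (hA0 : 0 ≤ A) (hB0 : 0 ≤ B)
    (hπ : ∀ x, dist x (π x) ≤ δ x)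
    (hB : ∀ x y, dist (π x) (π y) ≤ B * dist (g (π x)) (g (π y))) (x y : E) :
    dist x y ≤ (1 + A * B) * (δ x + δ y) + B * dist (g x) (g y) := by
  have h1 : dist x y ≤ dist x (π x) + dist (π x) (π y) + dist (π y) y := dist_triangle4 _ _ _ _
  have h2 : dist (g (π x)) (g (π y)) ≤
      dist (g (π x)) (g x) + dist (g x) (g y) + dist (g y) (g (π y)) := dist_triangle4 _ _ _ _
  have h3 : dist (g (π x)) (g x) ≤ A * δ x := by
    rw [dist_comm]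
    exact (hA _ _).trans (mul_le_mul_of_nonneg_left (hπ x) hA0)
  have h4 : dist (g y) (g (π y)) ≤ A * δ y :=
    (hA _ _).trans (mul_le_mul_of_nonneg_left (hπ y) hA0)
  have h5 := hB x y
  have h6 := hπ x
  have h7 := hπ y
  rw [dist_comm] at h7
  have h8 : B * dist (g (π x)) (g (π y)) ≤ B * (A * δ x + dist (g x) (g y) + A * δ y) :=
    mul_le_mul_of_nonneg_left (by linarith) hB0
  nlinarith

theorem reg_diam (g : E → Fin m → ℝ) (δ : E → ℝ) (π : E → E) (X : Set E) {A B : ℝ}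
    (hA : ∀ x y, dist (g x) (g y) ≤ A * dist x y) (hA0 : 0 ≤ A) (hB0 : 0 ≤ B)
    (hπ : ∀ x, dist x (π x) ≤ δ x)
    (hB : ∀ x y, dist (π x) (π y) ≤ B * dist (g (π x)) (g (π y))) (j : ℤ) (n : Fin m → ℤ) :
    ∀ x ∈ reg g δ X j n, ∀ y ∈ reg g δ X j n,
      dist x y ≤ (16 * (1 + A * B) + 5 * B) * (2 : ℝ) ^ j := by
  intro x hx y hy
  have hpos : (0 : ℝ) < (2 : ℝ) ^ j := by positivity
  have h1 := dist_le_spine g δ π hA hA0 hB0 hπ hB x y
  obtain ⟨-, -, hx3, hx4⟩ := hx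
  obtain ⟨-, -, hy3, hy4⟩ := hy
  have h2 : dist (g x) (g y) ≤ 5 * (2 : ℝ) ^ j := by
    have := dist_triangle_right (g x) (g y) (cen j n)
    linarith
  have h3 : (1 + A * B) * (δ x + δ y) ≤ (1 + A * B) * (16 * (2 : ℝ) ^ j) :=
    mul_le_mul_of_nonneg_left (by linarith) (by positivity)
  have h4 : B * dist (g x) (g y) ≤ B * (5 * (2 : ℝ) ^ j) := mul_le_mul_of_nonneg_left h2 hB0
  nlinarith

/-- the glued map -/
noncomputable def glueMap (g : E → Fin m → ℝ) (δ : E → ℝ)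
    (G : ℤ → (Fin m → ℤ) → E → EuclideanSpace ℝ (Fin k)) (x : E) :
    EuclideanSpace ℝ (Fin m ⊕ Unit ⊕ (Fin 4 × (Fin m → Fin 5)) × Fin k) :=
  WithLp.toLp 2 (Sum.elim (g x) (Sum.elim (fun _ => δ x)
    (fun p => gblock g δ G p.1.1 p.1.2 x p.2)))

theorem glueMap_norm_sq (g : E → Fin m → ℝ) (δ : E → ℝ)
    (G : ℤ → (Fin m → ℤ) → E → EuclideanSpace ℝ (Fin k)) (x y : E) :
    ‖glueMap g δ G x - glueMap g δ G y‖ ^ 2 =
      ∑ i, (g x i - g y i) ^ 2 + ((δ x - δ y) ^ 2 +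
        ∑ c : Fin 4 × (Fin m → Fin 5), ‖gblock g δ G c.1 c.2 x - gblock g δ G c.1 c.2 y‖ ^ 2) := by
  rw [EuclideanSpace.real_norm_sq_eq]
  rw [Fintype.sum_sum_type, Fintype.sum_sum_type, Fintype.sum_prod_type]
  simp only [glueMap, EuclideanSpace.real_norm_sq_eq]
  simp

end Vale.Agent.P208
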