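import Vale.Agent.P208.Glue4

namespace Vale.Agent.P208

variable {E : Type*} [PseudoMetricSpace E] {m k : ℕ}

theorem glue_upper (g : E → Fin m → ℝ) (δ : E → ℝ)
    (G : ℤ → (Fin m → ℤ) → E → EuclideanSpace ℝ (Fin k)) {M : ℝ} (hM0 : 0 ≤ M) (x y : E)
    (h1 : dist (g x) (g y) ≤ M * dist x y) (h2 : |δ x - δ y| ≤ M * dist x y)
    (h3 : ∀ c : Fin 4 × (Fin m → Fin 5),
      ‖gblock g δ G c.1 c.2 x - gblock g δ G c.1 c.2 y‖ ≤ M * dist x y) :
    ‖glueMap g δ G x - glueMap g δ G y‖ ≤ ((m + 1 + 4 * 5 ^ m : ℕ) : ℝ) * M * dist x y := by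
  have hd : 0 ≤ dist x y := dist_nonneg
  apply abs_le_of_sq_le_sq' _ (by positivity) |>.2
  rw [glueMap_norm_sq]
  have h1' : ∀ i, (g x i - g y i) ^ 2 ≤ (M * dist x y) ^ 2 := by
    intro i
    rw [← sq_abs]
    apply pow_le_pow_left₀ (abs_nonneg _)
    have h2 : |g x i - g y i| ≤ dist (g x) (g y) := by
      rw [← Real.dist_eq]
      exact dist_le_pi_dist _ _ i
    linarith
  have h2' : (δ x - δ y) ^ 2 ≤ (M * dist x y) ^ 2 := by
    rw [← sq_abs]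
    exact pow_le_pow_left₀ (abs_nonneg _) h2 2
  have h3' : ∀ c : Fin 4 × (Fin m → Fin 5),
      ‖gblock g δ G c.1 c.2 x - gblock g δ G c.1 c.2 y‖ ^ 2 ≤ (M * dist x y) ^ 2 :=
    fun c => pow_le_pow_left₀ (norm_nonneg _) (h3 c) 2
  have h4 : ∑ i, (g x i - g y i) ^ 2 ≤ ∑ _i : Fin m, (M * dist x y) ^ 2 :=
    Finset.sum_le_sum fun i _ => h1' i
  have h5 : ∑ c : Fin 4 × (Fin m → Fin 5),
      ‖gblock g δ G c.1 c.2 x - gblock g δ G c.1 c.2 y‖ ^ 2 ≤
      ∑ _c : Fin 4 × (Fin m → Fin 5), (M * dist x y) ^ 2 := Finset.sum_le_sum fun c _ => h3' c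
  simp only [Finset.sum_const, Finset.card_univ, Fintype.card_fin, Fintype.card_prod,
    Fintype.card_pi, Finset.prod_const, nsmul_eq_mul] at h4 h5
  have hK1 : (1 : ℝ) ≤ ((m + 1 + 4 * 5 ^ m : ℕ) : ℝ) := by
    have : 1 ≤ m + 1 + 4 * 5 ^ m := by omega
    exact_mod_cast this
  set K : ℝ := ((m + 1 + 4 * 5 ^ m : ℕ) : ℝ) with hK
  have hKeq : K = (m : ℝ) + 1 + ((4 * 5 ^ m : ℕ) : ℝ) := by
    rw [hK]; push_cast; ring
  set s : ℝ := (M * dist x y) ^ 2 with hs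
  have hsq : 0 ≤ s := by positivity
  have h6 : ∑ i, (g x i - g y i) ^ 2 + ((δ x - δ y) ^ 2 +
      ∑ c : Fin 4 × (Fin m → Fin 5),
        ‖gblock g δ G c.1 c.2 x - gblock g δ G c.1 c.2 y‖ ^ 2) ≤ K * s := by
    rw [hKeq]
    have : ((m : ℝ) + 1 + ((4 * 5 ^ m : ℕ) : ℝ)) * s = (m : ℝ) * s + (s + ((4 * 5 ^ m : ℕ) : ℝ) * s) := by
      ring
    rw [this]
    exact add_le_add h4 (add_le_add h2' h5)
  refine h6.trans ?_
  have : (K * M * dist x y) ^ 2 = K * (K * s) := by rw [hs]; ring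
  rw [this]
  have h7 : 0 ≤ K * s := by positivity
  calc K * s = 1 * (K * s) := (one_mul _).symm
    _ ≤ K * (K * s) := mul_le_mul_of_nonneg_right hK1 h7

theorem glue_coord_g (g : E → Fin m → ℝ) (δ : E → ℝ)
    (G : ℤ → (Fin m → ℤ) → E → EuclideanSpace ℝ (Fin k)) (x y : E) :
    dist (g x) (g y) ≤ ‖glueMap g δ G x - glueMap g δ G y‖ := by
  rw [dist_pi_le_iff (norm_nonneg _)]
  intro i
  rw [Real.dist_eq]
  apply abs_le_of_sq_le_sq' _ (norm_nonneg _) |>.2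
  rw [glueMap_norm_sq, sq_abs]
  have h1 : (g x i - g y i) ^ 2 ≤ ∑ i, (g x i - g y i) ^ 2 :=
    Finset.single_le_sum (f := fun i => (g x i - g y i) ^ 2) (fun i _ => by positivity)
      (Finset.mem_univ i)
  have h2 : 0 ≤ ∑ c : Fin 4 × (Fin m → Fin 5),
      ‖gblock g δ G c.1 c.2 x - gblock g δ G c.1 c.2 y‖ ^ 2 :=
    Finset.sum_nonneg fun c _ => by positivity
  have : 0 ≤ (δ x - δ y) ^ 2 := by positivity
  linarith

theorem glue_coord_d (g : E → Fin m → ℝ) (δ : E → ℝ)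
    (G : ℤ → (Fin m → ℤ) → E → EuclideanSpace ℝ (Fin k)) (x y : E) :
    |δ x - δ y| ≤ ‖glueMap g δ G x - glueMap g δ G y‖ := by
  apply abs_le_of_sq_le_sq' _ (norm_nonneg _) |>.2
  rw [glueMap_norm_sq, sq_abs]
  have h2 : 0 ≤ ∑ c : Fin 4 × (Fin m → Fin 5),
      ‖gblock g δ G c.1 c.2 x - gblock g δ G c.1 c.2 y‖ ^ 2 :=
    Finset.sum_nonneg fun c _ => by positivity
  have h3 : 0 ≤ ∑ i, (g x i - g y i) ^ 2 := Finset.sum_nonneg fun c _ => by positivity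
  linarith

theorem glue_coord_b (g : E → Fin m → ℝ) (δ : E → ℝ)
    (G : ℤ → (Fin m → ℤ) → E → EuclideanSpace ℝ (Fin k)) (c : Fin 4 × (Fin m → Fin 5)) (x y : E) :
    ‖gblock g δ G c.1 c.2 x - gblock g δ G c.1 c.2 y‖ ≤ ‖glueMap g δ G x - glueMap g δ G y‖ := by
  apply abs_le_of_sq_le_sq' _ (norm_nonneg _) |>.2
  rw [glueMap_norm_sq]
  have h1 : ‖gblock g δ G c.1 c.2 x - gblock g δ G c.1 c.2 y‖ ^ 2 ≤
      ∑ c : Fin 4 × (Fin m → Fin 5), ‖gblock g δ G c.1 c.2 x - gblock g δ G c.1 c.2 y‖ ^ 2 :=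
    Finset.single_le_sum
      (f := fun c : Fin 4 × (Fin m → Fin 5) =>
        ‖gblock g δ G c.1 c.2 x - gblock g δ G c.1 c.2 y‖ ^ 2)
      (fun c _ => by positivity) (Finset.mem_univ c)
  have h3 : 0 ≤ ∑ i, (g x i - g y i) ^ 2 := Finset.sum_nonneg fun c _ => by positivity
  have : 0 ≤ (δ x - δ y) ^ 2 := by positivity
  linarith

/-- two close points lie in the core of a common cube -/
theorem exists_common_cube (g : E → Fin m → ℝ) (δ : E → ℝ) (x y : E) (hxpos : 0 < δ x)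
    (hxy : δ x ≤ δ y) (hfar : δ y ≤ 2 * δ x)
    (hg : dist (g x) (g y) ≤ (2 : ℝ) ^ (Int.log 2 (δ x))) :
    ∃ (j : ℤ) (n : Fin m → ℤ), cut g δ j n x = 1 ∧ cut g δ j n y = 1 := by
  set j := Int.log 2 (δ x) with hj
  have h3 : ((2 : ℕ) : ℝ) ^ j ≤ δ x := Int.zpow_log_le_self (by norm_num) hxpos
  have h4 : δ x < ((2 : ℕ) : ℝ) ^ (j + 1) := Int.lt_zpow_succ_log_self (by norm_num) _
  push_cast at h3 h4
  have h5 : (2 : ℝ) ^ (j + 1) = 2 * 2 ^ j := by
    rw [zpow_add₀ (by norm_num : (2 : ℝ) ≠ 0)]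
    simp
    ring
  have hpos : (0 : ℝ) < (2 : ℝ) ^ j := by positivity
  let n : Fin m → ℤ := fun i => ⌊g x i / (2 : ℝ) ^ j⌋ - 1
  have hcx : dist (g x) (cen j n) ≤ 1 / 2 * (2 : ℝ) ^ j := by
    rw [dist_pi_le_iff (by positivity)]
    intro i
    rw [Real.dist_eq, abs_le]
    have h6 : (⌊g x i / (2 : ℝ) ^ j⌋ : ℝ) ≤ g x i / (2 : ℝ) ^ j := Int.floor_le _
    have h7 : g x i / (2 : ℝ) ^ j < (⌊g x i / (2 : ℝ) ^ j⌋ : ℝ) + 1 :=
      Int.lt_floor_add_one _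
    rw [le_div_iff₀ hpos] at h6
    rw [div_lt_iff₀ hpos] at h7
    simp only [cen, n]
    push_cast
    set f : ℝ := (⌊g x i / (2 : ℝ) ^ j⌋ : ℝ) with hf
    have e1 : (2 : ℝ) ^ j * (f - 1 + 3 / 2) = f * 2 ^ j + 1 / 2 * 2 ^ j := by ring
    have e2 : (f + 1) * (2 : ℝ) ^ j = f * 2 ^ j + 2 ^ j := by ring
    rw [e1]
    rw [e2] at h7
    constructor <;> linarith
  have hcy : dist (g y) (cen j n) ≤ 3 / 2 * (2 : ℝ) ^ j := by
    have := dist_triangle (g y) (g x) (cen j n)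
    rw [dist_comm (g y) (g x)] at this
    linarith
  exact ⟨j, n, cut_eq_one g δ j n x h3 (by linarith) (by linarith),
    cut_eq_one g δ j n y (by linarith) (by linarith) hcy⟩

theorem glue_lower_close (g : E → Fin m → ℝ) (δ : E → ℝ) (X : Set E)
    (G : ℤ → (Fin m → ℤ) → E → EuclideanSpace ℝ (Fin k))
    (hG1 : ∀ j n, ∀ x ∈ reg g δ X j n, ∀ y ∈ reg g δ X j n, dist x y ≤ ‖G j n x - G j n y‖)
    (x y : E) (hx : x ∈ X) (hy : y ∈ X) (j : ℤ) (n : Fin m → ℤ)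
    (hcutx : cut g δ j n x = 1) (hcuty : cut g δ j n y = 1) :
    dist x y ≤ ‖glueMap g δ G x - glueMap g δ G y‖ := by
  have hbl : (j % 4).toNat < 4 := by omega
  let b : Fin 4 := ⟨(j % 4).toNat, hbl⟩
  have hb : j % 4 = (b : ℤ) := by
    simp only [b]
    omega
  have hal : ∀ i, (n i % 5).toNat < 5 := by intro i; omega
  let a : Fin m → Fin 5 := fun i => ⟨(n i % 5).toNat, hal i⟩
  have ha : ∀ i, n i % 5 = (a i : ℤ) := by
    intro i
    simp only [a]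
    omega
  have hbx := gblock_eq g δ G b a x j n hb ha hcutx
  have hby := gblock_eq g δ G b a y j n hb ha hcuty
  have hxr : x ∈ reg g δ X j n :=
    mem_reg_of_cut_ne_zero g δ X j n x hx (by rw [hcutx]; exact one_ne_zero)
  have hyr : y ∈ reg g δ X j n :=
    mem_reg_of_cut_ne_zero g δ X j n y hy (by rw [hcuty]; exact one_ne_zero)
  have h8 := glue_coord_b g δ G (b, a) x y
  simp only [hbx, hby] at h8
  exact (hG1 j n x hxr y hyr).trans h8

theorem glue_lower (g : E → Fin m → ℝ) (δ : E → ℝ) (π : E → E) (X : Set E) {A B : ℝ}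
    (hA : ∀ x y, dist (g x) (g y) ≤ A * dist x y) (hA0 : 0 ≤ A) (hB0 : 0 ≤ B)
    (hπ : ∀ x, dist x (π x) ≤ δ x)
    (hB : ∀ x y, dist (π x) (π y) ≤ B * dist (g (π x)) (g (π y)))
    (G : ℤ → (Fin m → ℤ) → E → EuclideanSpace ℝ (Fin k))
    (hG1 : ∀ j n, ∀ x ∈ reg g δ X j n, ∀ y ∈ reg g δ X j n, dist x y ≤ ‖G j n x - G j n y‖)
    (x y : E) (hx : x ∈ X) (hy : y ∈ X) (hxy : δ x ≤ δ y) :
    dist x y ≤ (6 * (1 + A * B) + B + 1) * ‖glueMap g δ G x - glueMap g δ G y‖ := by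
  have hδ0 : ∀ x, 0 ≤ δ x := fun x => le_trans dist_nonneg (hπ x)
  have hAB : 0 ≤ 1 + A * B := by positivity
  have hsp := dist_le_spine g δ π hA hA0 hB0 hπ hB x y
  set N := ‖glueMap g δ G x - glueMap g δ G y‖ with hN
  have hn0 : 0 ≤ N := norm_nonneg _
  have hg : dist (g x) (g y) ≤ N := glue_coord_g g δ G x y
  have hBg : B * dist (g x) (g y) ≤ B * N := mul_le_mul_of_nonneg_left hg hB0
  have hmain : ∀ t : ℝ, δ x + δ y ≤ 6 * N → dist x y ≤ (6 * (1 + A * B) + B + 1) * N := by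
    intro _ h6
    have h7 : (1 + A * B) * (δ x + δ y) ≤ (1 + A * B) * (6 * N) :=
      mul_le_mul_of_nonneg_left h6 hAB
    have e : (6 * (1 + A * B) + B + 1) * N = (1 + A * B) * (6 * N) + B * N + N := by ring
    rw [e]
    linarith
  by_cases hfar : 2 * δ x < δ y
  · have h1 : |δ x - δ y| ≤ N := glue_coord_d g δ G x y
    have h3 : δ y - δ x ≤ |δ x - δ y| := by
      rw [abs_sub_comm]
      exact le_abs_self _
    apply hmain 0
    have := hδ0 x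
    linarith
  · rw [not_lt] at hfar
    by_cases hx0 : δ x = 0
    · have hy0 : δ y = 0 := by
        have := hδ0 y
        rw [hx0] at hfar
        linarith
      apply hmain 0
      rw [hx0, hy0]
      linarith
    · have hxpos : 0 < δ x := lt_of_le_of_ne (hδ0 x) (Ne.symm hx0)
      by_cases hgfar : (2 : ℝ) ^ (Int.log 2 (δ x)) < dist (g x) (g y)
      · have h4 : δ x < ((2 : ℕ) : ℝ) ^ (Int.log 2 (δ x) + 1) :=
          Int.lt_zpow_succ_log_self (by norm_num) _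
        push_cast at h4
        have h5 : (2 : ℝ) ^ (Int.log 2 (δ x) + 1) = 2 * 2 ^ (Int.log 2 (δ x)) := by
          rw [zpow_add₀ (by norm_num : (2 : ℝ) ≠ 0)]
          simp
          ring
        apply hmain 0
        linarith
      · rw [not_lt] at hgfar
        obtain ⟨j, n, h1, h2⟩ := exists_common_cube g δ x y hxpos hxy hfar hgfar
        have h3 := glue_lower_close g δ X G hG1 x y hx hy j n h1 h2
        have e : (6 * (1 + A * B) + B + 1) * N = (6 * (1 + A * B) + B) * N + N := by ring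
        rw [e]
        have : 0 ≤ (6 * (1 + A * B) + B) * N := by positivity
        linarith

end Vale.Agent.P208
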