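import Vale.Agent.P208.Glue5

namespace Vale.Agent.P208

variable {E : Type*} [PseudoMetricSpace E] {m k : ℕ}

/-- distortion bound produced by the gluing theorem -/
noncomputable def glueD (m : ℕ) (A B D : ℝ) : ℝ :=
  (6 * (1 + A * B) + B + 1) * (((m + 1 + 4 * 5 ^ m : ℕ) : ℝ) *
    (A + 1 + 2 * (D * (1 + (2 + A) * (16 * (1 + A * B) + 5 * B)))))

theorem glue_embeds (g : E → Fin m → ℝ) (δ : E → ℝ) (π : E → E) (X : Set E) {A B D : ℝ}
    (hA : ∀ x y, dist (g x) (g y) ≤ A * dist x y) (hA0 : 0 ≤ A) (hB0 : 0 ≤ B) (hD0 : 0 ≤ D)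
    (hδ : ∀ x y, |δ x - δ y| ≤ dist x y) (hπ : ∀ x, dist x (π x) ≤ δ x)
    (hB : ∀ x y, dist (π x) (π y) ≤ B * dist (g (π x)) (g (π y)))
    (hloc : ∀ j n, EmbedsWith (reg g δ X j n) k D) :
    EmbedsWith X (m + (1 + 4 * 5 ^ m * k)) (glueD m A B D) := by
  classical
  choose G hG1 hG2 using fun j n => exists_local (reg g δ X j n) hD0 (hloc j n)
  set C : ℝ := 16 * (1 + A * B) + 5 * B with hC
  have hC0 : 0 ≤ C := by positivity
  set Lp : ℝ := D * (1 + (2 + A) * C) with hLp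
  have hLp0 : 0 ≤ Lp := by positivity
  have hpiece : ∀ j n, ∀ x ∈ X, ∀ y ∈ X,
      ‖gpiece g δ G j n x - gpiece g δ G j n y‖ ≤ Lp * dist x y := by
    intro j n x hx y hy
    refine gpiece_lip g δ X hA hδ hA0 hC0 hD0 G j n (fun x hx y hy => (hG1 j n x hx y hy).2) ?_
      x y hx hy
    intro x hx
    have := hG2 j n (C * (2 : ℝ) ^ j) (reg_diam g δ π X hA hA0 hB0 hπ hB j n) x hx
    linarith
  set M : ℝ := A + 1 + 2 * Lp with hM
  have hM0 : 0 ≤ M := by positivity
  have hupper : ∀ x ∈ X, ∀ y ∈ X, ‖glueMap g δ G x - glueMap g δ G y‖ ≤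
      ((m + 1 + 4 * 5 ^ m : ℕ) : ℝ) * M * dist x y := by
    intro x hx y hy
    have hd : 0 ≤ dist x y := dist_nonneg
    have e : M * dist x y = A * dist x y + dist x y + 2 * Lp * dist x y := by rw [hM]; ring
    have n1 : 0 ≤ A * dist x y := by positivity
    have n2 : 0 ≤ 2 * Lp * dist x y := by positivity
    refine glue_upper g δ G hM0 x y ?_ ?_ ?_
    · have := hA x y
      linarith
    · have := hδ x y
      linarith
    · intro c
      have := gblock_lip g δ X G hpiece c.1 c.2 x y hx hy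
      linarith
  set c0 : ℝ := 6 * (1 + A * B) + B + 1 with hc0
  have hc0pos : 0 < c0 := by positivity
  have hlower : ∀ x ∈ X, ∀ y ∈ X, dist x y ≤ c0 * ‖glueMap g δ G x - glueMap g δ G y‖ := by
    intro x hx y hy
    rcases le_total (δ x) (δ y) with h | h
    · exact glue_lower g δ π X hA hA0 hB0 hπ hB G (fun j n x hx y hy => (hG1 j n x hx y hy).1)
        x y hx hy h
    · have := glue_lower g δ π X hA hA0 hB0 hπ hB G (fun j n x hx y hy => (hG1 j n x hx y hy).1)
        y x hy hx h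
      rwa [dist_comm, norm_sub_rev] at this
  have hcard : Fintype.card (Fin m ⊕ Unit ⊕ (Fin 4 × (Fin m → Fin 5)) × Fin k) =
      m + (1 + 4 * 5 ^ m * k) := by
    simp
  let e := Fintype.equivFinOfCardEq hcard
  let iso := LinearIsometryEquiv.piLpCongrLeft 2 ℝ ℝ e
  refine ⟨fun x => iso (glueMap g δ G x.1), 1 / c0, by positivity, fun x y => ?_⟩
  have hd : dist (iso (glueMap g δ G x.1)) (iso (glueMap g δ G y.1)) =
      ‖glueMap g δ G x.1 - glueMap g δ G y.1‖ := by
    rw [iso.dist_map, dist_eq_norm]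
  have hd2 : dist x y = dist x.1 y.1 := rfl
  rw [hd, hd2]
  constructor
  · have := hlower x.1 x.2 y.1 y.2
    rw [one_div, ← div_eq_inv_mul, div_le_iff₀ hc0pos]
    linarith
  · have h1 := hupper x.1 x.2 y.1 y.2
    have h2 : glueD m A B D * (1 / c0) = ((m + 1 + 4 * 5 ^ m : ℕ) : ℝ) * M := by
      unfold glueD
      rw [← hC, ← hLp, ← hM, ← hc0]
      field_simp
    rw [h2]
    exact h1

end Vale.Agent.P208
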