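import Vale.Agent.P208.Bump

namespace Vale.Agent.P208

variable {H : Type*} [NormedAddCommGroup H] [InnerProductSpace ℝ H]

/-- A contraction onto `R^n` that is isometric on a given subspace of dimension at most `n`. -/
theorem exists_model_map (W : Submodule ℝ H) [FiniteDimensional ℝ W] (n : ℕ)
    (hn : Module.finrank ℝ W ≤ n) :
    ∃ φ : H →ₗ[ℝ] EuclideanSpace ℝ (Fin n), (∀ v, ‖φ v‖ ≤ ‖v‖) ∧ ∀ v ∈ W, ‖φ v‖ = ‖v‖ := by
  classical
  let b := stdOrthonormalBasis ℝ W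
  let u : Fin (Module.finrank ℝ W) → EuclideanSpace ℝ (Fin n) :=
    (EuclideanSpace.basisFun (Fin n) ℝ) ∘ (Fin.castLE hn)
  have hu : Orthonormal ℝ u :=
    (EuclideanSpace.basisFun (Fin n) ℝ).orthonormal.comp _ (Fin.castLE_injective hn)
  let f : W →ₗ[ℝ] EuclideanSpace ℝ (Fin n) := b.toBasis.constr ℝ u
  have hf : Orthonormal ℝ (f ∘ b.toBasis) := by
    have : f ∘ b.toBasis = u := by
      funext i
      simp [f]
    rw [this]
    exact hu
  let ψ : W →ₗᵢ[ℝ] EuclideanSpace ℝ (Fin n) :=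
    f.isometryOfOrthonormal (v := b.toBasis) (by simp) hf
  refine ⟨ψ.toLinearMap ∘ₗ (W.orthogonalProjectionOnto : H →ₗ[ℝ] W), fun v => ?_, fun v hv => ?_⟩
  · simp only [LinearMap.coe_comp, Function.comp_apply]
    have : ‖ψ (W.orthogonalProjectionOnto v)‖ = ‖W.orthogonalProjectionOnto v‖ := ψ.norm_map _
    exact this.le.trans (W.norm_orthogonalProjectionOnto_apply_le v)
  · simp only [LinearMap.coe_comp, Function.comp_apply]
    have : ‖ψ (W.orthogonalProjectionOnto v)‖ = ‖W.orthogonalProjectionOnto v‖ := ψ.norm_map _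
    exact this.trans (W.norm_orthogonalProjectionOnto_apply hv)

/-- The localized map `x ↦ bump (‖x‖ / c) • φ x` is `17`-Lipschitz. -/
theorem local_lip {E' : Type*} [NormedAddCommGroup E'] [NormedSpace ℝ E'] (φ : H →ₗ[ℝ] E')
    (hφ : ∀ v, ‖φ v‖ ≤ ‖v‖) {c : ℝ} (hc : 0 < c) (x y : H) :
    ‖bump (‖x‖ / c) • φ x - bump (‖y‖ / c) • φ y‖ ≤ 17 * ‖x - y‖ := by
  have key : ∀ x y : H, ‖y‖ ≤ 8 * c →
      ‖bump (‖x‖ / c) • φ x - bump (‖y‖ / c) • φ y‖ ≤ 17 * ‖x - y‖ := by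
    intro x y hy
    have h1 : bump (‖x‖ / c) • φ x - bump (‖y‖ / c) • φ y =
        bump (‖x‖ / c) • φ (x - y) + (bump (‖x‖ / c) - bump (‖y‖ / c)) • φ y := by
      rw [map_sub, smul_sub, sub_smul]
      abel
    rw [h1]
    refine (norm_add_le _ _).trans ?_
    rw [norm_smul, norm_smul, Real.norm_eq_abs, Real.norm_eq_abs, abs_of_nonneg (bump_nonneg _)]
    have h2 : bump (‖x‖ / c) * ‖φ (x - y)‖ ≤ ‖x - y‖ := by
      calc bump (‖x‖ / c) * ‖φ (x - y)‖ ≤ 1 * ‖x - y‖ :=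
            mul_le_mul (bump_le_one _) (hφ _) (norm_nonneg _) zero_le_one
        _ = ‖x - y‖ := one_mul _
    have h3 : |bump (‖x‖ / c) - bump (‖y‖ / c)| ≤ 2 * (‖x - y‖ / c) := by
      refine (bump_lip _ _).trans ?_
      have : ‖x‖ / c - ‖y‖ / c = (‖x‖ - ‖y‖) / c := by ring
      rw [this, abs_div, abs_of_pos hc]
      have := abs_norm_sub_norm_le x y
      gcongr
    have h4 : |bump (‖x‖ / c) - bump (‖y‖ / c)| * ‖φ y‖ ≤ 16 * ‖x - y‖ := by
      calc |bump (‖x‖ / c) - bump (‖y‖ / c)| * ‖φ y‖ ≤ (2 * (‖x - y‖ / c)) * (8 * c) :=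
            mul_le_mul h3 ((hφ y).trans hy) (norm_nonneg _) (by positivity)
        _ = 16 * ‖x - y‖ := by field_simp; ring
    linarith
  by_cases hy : ‖y‖ ≤ 8 * c
  · exact key x y hy
  · by_cases hx : ‖x‖ ≤ 8 * c
    · have := key y x hx
      rw [norm_sub_rev, norm_sub_rev x y]
      exact this
    · have h1 : bump (‖x‖ / c) = 0 := bump_eq_zero_of_ge (by
        rw [le_div_iff₀ hc]; linarith)
      have h2 : bump (‖y‖ / c) = 0 := bump_eq_zero_of_ge (by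
        rw [le_div_iff₀ hc]; linarith)
      rw [h1, h2]
      simp

end Vale.Agent.P208
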