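import Vale.Agent.P208.Glue6
import Vale.Agent.P208.Bouquet

namespace Vale.Agent.P208

variable {H : Type*} [NormedAddCommGroup H] [InnerProductSpace ℝ H]

theorem norm_sub_starProjection_le (W : Submodule ℝ H) [W.HasOrthogonalProjection] (v : H) :
    ‖v - W.starProjection v‖ ≤ ‖v‖ := by
  have h1 : Wᗮ.starProjection v = v - W.starProjection v := by
    rw [Submodule.starProjection_orthogonal_val]
  rw [← h1]
  exact Submodule.norm_starProjection_apply_le _ v

theorem norm_sub_starProjection_le_of_mem (W : Submodule ℝ H) [W.HasOrthogonalProjection]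
    (x y : H) (hy : y ∈ W) : ‖x - W.starProjection x‖ ≤ ‖x - y‖ := by
  have h1 : W.starProjection y = y := Submodule.starProjection_eq_self_iff.2 hy
  have h2 : x - W.starProjection x = (x - y) - W.starProjection (x - y) := by
    rw [map_sub, h1]
    abel
  rw [h2]
  exact norm_sub_starProjection_le W _

variable {ι : Type*} (V : ι → Submodule ℝ H) [∀ i, FiniteDimensional ℝ (V i)]

theorem proj_eq_zero [DecidableEq ι] (horth : ∀ i j, i ≠ j → V i ⟂ V j) (T : Finset ι) (i : ι)
    (hi : i ∉ T) (c : H) (hc : c ∈ T.sup V) : (V i).starProjection c = 0 := by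
  rw [Submodule.starProjection_apply_eq_zero_iff]
  have : T.sup V ≤ (V i)ᗮ := by
    apply Finset.sup_le
    intro i' hi'
    have hne : i' ≠ i := fun h => hi (h ▸ hi')
    exact horth i' i hne
  exact this hc

theorem sum_proj_eq [DecidableEq ι] (horth : ∀ i j, i ≠ j → V i ⟂ V j) (T : Finset ι) (x : H)
    (hx : x ∈ T.sup V) : ∑ i ∈ T, (V i).starProjection x = x := by
  let Φ : H →ₗ[ℝ] H := ∑ i ∈ T, ((V i).starProjection : H →ₗ[ℝ] H)
  have hΦ : ∀ y, Φ y = ∑ i ∈ T, (V i).starProjection y := by
    intro y
    simp [Φ, LinearMap.sum_apply]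
  have hle : T.sup V ≤ LinearMap.eqLocus Φ LinearMap.id := by
    apply Finset.sup_le
    intro i0 hi0 y hy
    rw [LinearMap.mem_eqLocus, hΦ, LinearMap.id_apply]
    rw [Finset.sum_eq_single i0]
    · exact Submodule.starProjection_eq_self_iff.2 hy
    · intro i _ hne
      rw [Submodule.starProjection_apply_eq_zero_iff]
      exact (horth i0 i (Ne.symm hne)) hy
    · intro h
      exact absurd hi0 h
  have := hle hx
  rw [LinearMap.mem_eqLocus, hΦ, LinearMap.id_apply] at this
  exact this

theorem finDim_sup (T : Finset ι) : FiniteDimensional ℝ (T.sup V : Submodule ℝ H) := by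
  classical
  induction T using Finset.induction_on with
  | empty =>
    rw [Finset.sup_empty]
    infer_instance
  | insert i s _ ih =>
    rw [Finset.sup_insert]
    infer_instance

theorem delta_le_sum [DecidableEq ι] (horth : ∀ i j, i ≠ j → V i ⟂ V j) (L S : Finset ι) (x : H)
    (hx : x ∈ (L ∪ S).sup V) [(L.sup V).HasOrthogonalProjection] :
    ‖x - (L.sup V).starProjection x‖ ≤ ∑ i ∈ S \ L, ‖(V i).starProjection x‖ := by
  have h1 := sum_proj_eq V horth (L ∪ S) x hx
  have h2 : L ∪ S = L ∪ (S \ L) := by
    ext i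
    simp only [Finset.mem_union, Finset.mem_sdiff]
    tauto
  rw [h2, Finset.sum_union Finset.disjoint_sdiff] at h1
  have hy : ∑ i ∈ L, (V i).starProjection x ∈ L.sup V := by
    apply Submodule.sum_mem
    intro i hi
    exact (Finset.le_sup (f := V) hi) (Submodule.starProjection_apply_mem _ _)
  refine (norm_sub_starProjection_le_of_mem _ x _ hy).trans ?_
  have h3 : x - ∑ i ∈ L, (V i).starProjection x = ∑ i ∈ S \ L, (V i).starProjection x := by
    nth_rewrite 1 [← h1]
    abel
  rw [h3]
  exact norm_sum_le _ _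

end Vale.Agent.P208
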