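import Vale.Agent.P208.Sparse1

namespace Vale.Agent.P208

theorem doubling_subset {E : Type*} [PseudoMetricSpace E] {X Y : Set E} {lam : ℕ}
    (h : IsDoublingWith X lam) (hYX : Y ⊆ X) : IsDoublingWith Y (lam ^ 2) := by
  classical
  intro x hx r hr
  obtain ⟨t, -, ht2, ht3⟩ := doubling_iter h 2 x (hYX hx) r hr
  have hex : ∀ c : E, ∃ c' : E, (∃ y ∈ Y, y ∈ Metric.ball c (r / 2 ^ 2)) →
      (c' ∈ Y ∧ c' ∈ Metric.ball c (r / 2 ^ 2)) := by
    intro c
    by_cases hc : ∃ y ∈ Y, y ∈ Metric.ball c (r / 2 ^ 2)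
    · obtain ⟨y, hy1, hy2⟩ := hc
      exact ⟨y, fun _ => ⟨hy1, hy2⟩⟩
    · exact ⟨c, fun h => absurd h hc⟩
  choose p hp using hex
  let t' := (t.filter (fun c => ∃ y ∈ Y, y ∈ Metric.ball c (r / 2 ^ 2))).image p
  refine ⟨t', ?_, ?_, ?_⟩
  · intro y hy
    have hy' : y ∈ t' := hy
    simp only [t', Finset.mem_image, Finset.mem_filter] at hy'
    obtain ⟨c, ⟨_, hc2⟩, rfl⟩ := hy'
    exact (hp c hc2).1
  · exact (Finset.card_image_le).trans ((Finset.card_filter_le _ _).trans ht2)
  · intro y hy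
    have h1 := ht3 ⟨hYX hy.1, hy.2⟩
    rw [Set.mem_iUnion₂] at h1
    obtain ⟨c, hc, hyc⟩ := h1
    have hc2 : ∃ y ∈ Y, y ∈ Metric.ball c (r / 2 ^ 2) := ⟨y, hy.1, hyc⟩
    rw [Set.mem_iUnion₂]
    refine ⟨p c, ?_, ?_⟩
    · simp only [t', Finset.mem_image, Finset.mem_filter]
      exact ⟨c, ⟨hc, hc2⟩, rfl⟩
    · have h3 := (hp c hc2).2
      rw [Metric.mem_ball] at h3 hyc ⊢
      have h4 := dist_triangle_right y (p c) c
      have : r / 2 ^ 2 + r / 2 ^ 2 = r / 2 := by ring
      linarith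

variable {H : Type*} [NormedAddCommGroup H] [InnerProductSpace ℝ H]

/-- the data needed by the gluing theorem, for a flat finite-dimensional spine `W` -/
theorem exists_spine_data (W : Submodule ℝ H) [FiniteDimensional ℝ W] (m : ℕ)
    (hm : Module.finrank ℝ W ≤ m) :
    ∃ g : H → Fin m → ℝ, (∀ x y, dist (g x) (g y) ≤ 1 * dist x y) ∧
      (∀ x y, dist (W.starProjection x) (W.starProjection y) ≤
        (m : ℝ) * dist (g (W.starProjection x)) (g (W.starProjection y))) := by
  obtain ⟨φ, hφ1, hφ2⟩ := exists_model_map W m hm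
  refine ⟨fun x i => φ x i, fun x y => ?_, fun x y => ?_⟩
  · rw [one_mul, dist_pi_le_iff dist_nonneg]
    intro i
    rw [Real.dist_eq, dist_eq_norm]
    have h1 : φ x i - φ y i = (φ (x - y)) i := by
      rw [map_sub]
      rfl
    rw [h1]
    exact (PiLp.norm_apply_le (φ (x - y)) i).trans (hφ1 _)
  · set u := W.starProjection x with hu
    set v := W.starProjection y with hv
    have huv : u - v ∈ W :=
      Submodule.sub_mem _ (Submodule.starProjection_apply_mem _ _)
        (Submodule.starProjection_apply_mem _ _)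
    rw [dist_eq_norm, ← hφ2 _ huv]
    set s := dist (fun i => φ u i) (fun i => φ v i) with hs
    have hs0 : 0 ≤ s := dist_nonneg
    have hcoord : ∀ i, |φ (u - v) i| ≤ s := by
      intro i
      have h1 : (φ (u - v)) i = φ u i - φ v i := by
        rw [map_sub]
        rfl
      rw [h1, ← Real.dist_eq]
      exact dist_le_pi_dist (fun i => φ u i) (fun i => φ v i) i
    apply abs_le_of_sq_le_sq' _ (by positivity) |>.2
    rw [EuclideanSpace.real_norm_sq_eq]
    have h2 : ∑ i, (φ (u - v)) i ^ 2 ≤ ∑ _i : Fin m, s ^ 2 := by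
      apply Finset.sum_le_sum
      intro i _
      rw [← sq_abs]
      exact pow_le_pow_left₀ (abs_nonneg _) (hcoord i) 2
    simp only [Finset.sum_const, Finset.card_univ, Fintype.card_fin, nsmul_eq_mul] at h2
    refine h2.trans ?_
    have h3 : ((m : ℝ) * s) ^ 2 = (m : ℝ) * ((m : ℝ) * s ^ 2) := by ring
    rw [h3]
    rcases Nat.eq_zero_or_pos m with h0 | h0
    · subst h0
      simp
    · have h4 : (1 : ℝ) ≤ (m : ℝ) := by exact_mod_cast h0
      have h5 : 0 ≤ (m : ℝ) * s ^ 2 := by positivity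
      calc (m : ℝ) * s ^ 2 = 1 * ((m : ℝ) * s ^ 2) := (one_mul _).symm
        _ ≤ (m : ℝ) * ((m : ℝ) * s ^ 2) := mul_le_mul_of_nonneg_right h4 h5

theorem delta_lip (W : Submodule ℝ H) [W.HasOrthogonalProjection] (x y : H) :
    |‖x - W.starProjection x‖ - ‖y - W.starProjection y‖| ≤ dist x y := by
  refine (abs_norm_sub_norm_le _ _).trans ?_
  have h : x - W.starProjection x - (y - W.starProjection y) =
      (x - y) - W.starProjection (x - y) := by
    rw [map_sub]
    abel
  rw [h, dist_eq_norm]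
  exact norm_sub_starProjection_le W _

end Vale.Agent.P208
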