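import Vale.Agent.P208.Sparse2

namespace Vale.Agent.P208

variable {H : Type*} [NormedAddCommGroup H] [InnerProductSpace ℝ H]
variable {ι : Type*} (V : ι → Submodule ℝ H) [∀ i, FiniteDimensional ℝ (V i)]

/-- Over a Whitney region the spine can be enlarged by boundedly many blocks so that the sparsity
of the normal part drops by one. -/
theorem region_structure [DecidableEq ι] (horth : ∀ i j, i ≠ j → V i ⟂ V j)
    {X R : Set H} (hRX : R ⊆ X) {lam d : ℕ} (hdoub : IsDoublingWith X lam) (L : Finset ι)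
    [(L.sup V).HasOrthogonalProjection]
    (hsp : ∀ x ∈ X, ∃ S : Finset ι, S.card ≤ d + 1 ∧ x ∈ (L ∪ S).sup V)
    {s : ℝ} (hs : 0 < s) (c p : ℕ) (hp : 2 * (d + 1) * c ≤ 2 ^ p)
    (hlow : ∀ x ∈ R, s / 2 < ‖x - (L.sup V).starProjection x‖)
    (hdiam : ∀ x ∈ R, ∀ y ∈ R, dist x y < (c : ℝ) * s) :
    ∃ L' : Finset ι, L'.card ≤ L.card + (d + 1) * lam ^ p ∧
      ∀ x ∈ R, ∃ S : Finset ι, S.card ≤ d ∧ x ∈ (L' ∪ S).sup V := by
  classical
  by_cases hne : R.Nonempty
  swap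
  · exact ⟨L, Nat.le_add_right _ _, fun x hx => absurd ⟨x, hx⟩ hne⟩
  obtain ⟨x0, hx0⟩ := hne
  have hex : ∀ x : H, ∃ S : Finset ι, x ∈ X → (S.card ≤ d + 1 ∧ x ∈ (L ∪ S).sup V) := by
    intro x
    by_cases hx : x ∈ X
    · obtain ⟨S, hS⟩ := hsp x hx
      exact ⟨S, fun _ => hS⟩
    · exact ⟨∅, fun h => absurd h hx⟩
  choose Sx hSx using hex
  have hc0 : 0 < (c : ℝ) * s := lt_of_le_of_lt dist_nonneg (hdiam x0 hx0 x0 hx0)
  obtain ⟨t, ht1, ht2, ht3⟩ := doubling_iter hdoub p x0 (hRX hx0) ((c : ℝ) * s) hc0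
  set τ : ℝ := (c : ℝ) * s / 2 ^ p with hτ
  have hτ2 : ((d : ℝ) + 1) * τ ≤ s / 2 := by
    have h1 : (2 * ((d : ℝ) + 1) * (c : ℝ)) ≤ (2 : ℝ) ^ p := by exact_mod_cast hp
    have h2 : (0 : ℝ) < (2 : ℝ) ^ p := by positivity
    rw [hτ, ← mul_div_assoc, div_le_iff₀ h2]
    nlinarith
  refine ⟨L ∪ t.biUnion Sx, ?_, ?_⟩
  · refine (Finset.card_union_le _ _).trans (Nat.add_le_add_left ?_ _)
    calc (t.biUnion Sx).card ≤ ∑ c ∈ t, (Sx c).card := Finset.card_biUnion_le
      _ ≤ ∑ _c ∈ t, (d + 1) := Finset.sum_le_sum fun c hc => (hSx c (ht1 hc)).1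
      _ = t.card * (d + 1) := by rw [Finset.sum_const, smul_eq_mul]
      _ ≤ lam ^ p * (d + 1) := Nat.mul_le_mul_right _ ht2
      _ = (d + 1) * lam ^ p := Nat.mul_comm _ _
  · intro x hx
    obtain ⟨hS1, hS2⟩ := hSx x (hRX hx)
    have hδ := delta_le_sum V horth L (Sx x) x hS2
    have hbig : ∃ i ∈ Sx x \ L, τ < ‖(V i).starProjection x‖ := by
      by_contra hcon
      push Not at hcon
      have h1 : ∑ i ∈ Sx x \ L, ‖(V i).starProjection x‖ ≤ ∑ _i ∈ Sx x \ L, τ :=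
        Finset.sum_le_sum hcon
      rw [Finset.sum_const, nsmul_eq_mul] at h1
      have h2 : ((Sx x \ L).card : ℝ) ≤ (d : ℝ) + 1 := by
        have : (Sx x \ L).card ≤ d + 1 := (Finset.card_le_card Finset.sdiff_subset).trans hS1
        exact_mod_cast this
      have hτ0 : 0 ≤ τ := by positivity
      have h3 : ((Sx x \ L).card : ℝ) * τ ≤ ((d : ℝ) + 1) * τ :=
        mul_le_mul_of_nonneg_right h2 hτ0
      have := hlow x hx
      linarith
    obtain ⟨i, hi, hiτ⟩ := hbig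
    rw [Finset.mem_sdiff] at hi
    have hxball : x ∈ X ∩ Metric.ball x0 ((c : ℝ) * s) := ⟨hRX hx, hdiam x hx x0 hx0⟩
    have h4 := ht3 hxball
    rw [Set.mem_iUnion₂] at h4
    obtain ⟨cc, hcc, hxcc⟩ := h4
    have hicc : i ∈ Sx cc := by
      by_contra hnot
      have hnot' : i ∉ L ∪ Sx cc := by
        rw [Finset.mem_union]
        tauto
      have h5 := proj_eq_zero V horth _ i hnot' cc (hSx cc (ht1 hcc)).2
      have h6 : (V i).starProjection x = (V i).starProjection (x - cc) := by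
        rw [map_sub, h5, sub_zero]
      have h7 : ‖(V i).starProjection (x - cc)‖ ≤ ‖x - cc‖ :=
        Submodule.norm_starProjection_apply_le _ _
      rw [Metric.mem_ball, dist_eq_norm] at hxcc
      rw [h6] at hiτ
      linarith
    refine ⟨(Sx x).erase i, ?_, ?_⟩
    · have := Finset.card_erase_of_mem hi.1
      omega
    · have hsub : L ∪ Sx x ⊆ (L ∪ t.biUnion Sx) ∪ (Sx x).erase i := by
        intro i' hi'
        rw [Finset.mem_union] at hi'
        simp only [Finset.mem_union, Finset.mem_biUnion, Finset.mem_erase]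
        rcases hi' with h | h
        · exact Or.inl (Or.inl h)
        · by_cases hii : i' = i
          · subst hii
            exact Or.inl (Or.inr ⟨cc, hcc, hicc⟩)
          · exact Or.inr ⟨hii, h⟩
      have hle : (L ∪ Sx x).sup V ≤ ((L ∪ t.biUnion Sx) ∪ (Sx x).erase i).sup V :=
        Finset.sup_mono hsub
      exact hle hS2

end Vale.Agent.P208
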