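import Vale.Agent.P208.Sparse3

namespace Vale.Agent.P208

/-- number of halvings used in the induction step -/
def pS (m d : ℕ) : ℕ := 2 * d * (17 + 21 * m)

/-- target dimension for `d`-block-sparse sets over a spine of `l` blocks of dimension `≤ q` -/
def kS (q : ℕ) : ℕ → ℕ → ℕ → ℕ
  | 0, l, _ => l * q
  | d + 1, l, lam => l * q + (1 + 4 * 5 ^ (l * q) *
      kS q d (l + (d + 1) * lam ^ pS (l * q) (d + 1)) (lam ^ 2))

/-- distortion bound -/
noncomputable def DS (q : ℕ) : ℕ → ℕ → ℕ → ℝ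
  | 0, _, _ => 1
  | d + 1, l, lam => glueD (l * q) 1 ((l * q : ℕ) : ℝ)
      (DS q d (l + (d + 1) * lam ^ pS (l * q) (d + 1)) (lam ^ 2))

theorem glueD_nonneg (m : ℕ) {A B D : ℝ} (hA : 0 ≤ A) (hB : 0 ≤ B) (hD : 0 ≤ D) :
    0 ≤ glueD m A B D := by
  unfold glueD
  positivity

theorem DS_nonneg (q : ℕ) : ∀ d l lam, 0 ≤ DS q d l lam := by
  intro d
  induction d with
  | zero => intro l lam; simp [DS]
  | succ d ih =>
    intro l lam
    rw [DS]
    exact glueD_nonneg _ zero_le_one (Nat.cast_nonneg _) (ih _ _)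

variable {H : Type*} [NormedAddCommGroup H] [InnerProductSpace ℝ H]
variable {ι : Type*} (V : ι → Submodule ℝ H) [∀ i, FiniteDimensional ℝ (V i)]

theorem sparse_embeds_aux [DecidableEq ι] (q : ℕ) (hq : ∀ i, Module.finrank ℝ (V i) ≤ q)
    (horth : ∀ i j, i ≠ j → V i ⟂ V j) :
    ∀ (d l lam : ℕ) (X : Set H) (L : Finset ι), L.card ≤ l →
      (∀ x ∈ X, ∃ S : Finset ι, S.card ≤ d ∧ x ∈ (L ∪ S).sup V) → IsDoublingWith X lam →
      EmbedsWith X (kS q d l lam) (DS q d l lam) := by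
  intro d
  induction d with
  | zero =>
    intro l lam X L hL hsp _
    have hfin : FiniteDimensional ℝ (L.sup V : Submodule ℝ H) := finDim_sup V L
    have hrank : Module.finrank ℝ (L.sup V : Submodule ℝ H) ≤ l * q :=
      (finrank_finset_sup_le V q inferInstance hq L).2.trans (Nat.mul_le_mul_right _ hL)
    obtain ⟨φ, -, hφ2⟩ := exists_model_map (L.sup V) (l * q) hrank
    have hmem : ∀ x ∈ X, x ∈ L.sup V := by
      intro x hx
      obtain ⟨S, hS1, hS2⟩ := hsp x hx
      have : S = ∅ := Finset.card_eq_zero.1 (Nat.le_zero.1 hS1)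
      rw [this, Finset.union_empty] at hS2
      exact hS2
    rw [kS, DS]
    refine ⟨fun x => φ x.1, 1, one_pos, fun x y => ?_⟩
    have h1 : dist (φ x.1) (φ y.1) = dist x y := by
      rw [dist_eq_norm, ← map_sub, hφ2 _ (Submodule.sub_mem _ (hmem _ x.2) (hmem _ y.2)),
        Subtype.dist_eq, dist_eq_norm]
    simp only [h1]
    simp
  | succ d ih =>
    intro l lam X L hL hsp hdoub
    have hfin : FiniteDimensional ℝ (L.sup V : Submodule ℝ H) := finDim_sup V L
    have hrank : Module.finrank ℝ (L.sup V : Submodule ℝ H) ≤ l * q :=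
      (finrank_finset_sup_le V q inferInstance hq L).2.trans (Nat.mul_le_mul_right _ hL)
    obtain ⟨g, hg1, hg2⟩ := exists_spine_data (L.sup V) (l * q) hrank
    let δ : H → ℝ := fun x => ‖x - (L.sup V).starProjection x‖
    let π : H → H := fun x => (L.sup V).starProjection x
    have hπ : ∀ x, dist x (π x) ≤ δ x := fun x => by rw [dist_eq_norm]
    have hδ : ∀ x y, |δ x - δ y| ≤ dist x y := delta_lip (L.sup V)
    rw [kS, DS]
    refine glue_embeds g δ π X hg1 zero_le_one (Nat.cast_nonneg _) (DS_nonneg _ _ _ _) hδ hπ hg2 ?_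
    intro j n
    have hRX : reg g δ X j n ⊆ X := fun x hx => hx.1
    have hpos : (0 : ℝ) < (2 : ℝ) ^ j := by positivity
    have hp : 2 * (d + 1) * (17 + 21 * (l * q)) ≤ 2 ^ pS (l * q) (d + 1) := by
      unfold pS
      exact (Nat.lt_two_pow_self).le
    obtain ⟨L', hL'1, hL'2⟩ := region_structure V horth hRX hdoub L hsp hpos (17 + 21 * (l * q))
      (pS (l * q) (d + 1)) hp (fun x hx => hx.2.1) (by
        intro x hx y hy
        have h1 := reg_diam g δ π X hg1 zero_le_one (Nat.cast_nonneg _) hπ hg2 j n x hx y hy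
        have e : ((17 + 21 * (l * q) : ℕ) : ℝ) * (2 : ℝ) ^ j =
            (16 * (1 + 1 * ((l * q : ℕ) : ℝ)) + 5 * ((l * q : ℕ) : ℝ)) * (2 : ℝ) ^ j
              + (2 : ℝ) ^ j := by
          push_cast
          ring
        rw [e]
        linarith)
    exact ih _ _ _ L' (hL'1.trans (Nat.add_le_add_right hL _)) hL'2 (doubling_subset hdoub hRX)

theorem sparse_embeds (q d lam : ℕ) (hq : ∀ i, Module.finrank ℝ (V i) ≤ q)
    (horth : ∀ i j, i ≠ j → V i ⟂ V j) (X : Set H)
    (hsp : ∀ x ∈ X, ∃ S : Finset ι, S.card ≤ d ∧ x ∈ S.sup V) (hdoub : IsDoublingWith X lam) :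
    EmbedsWith X (kS q d 0 lam) (DS q d 0 lam) := by
  classical
  refine sparse_embeds_aux V q hq horth d 0 lam X ∅ (by simp) ?_ hdoub
  intro x hx
  obtain ⟨S, h1, h2⟩ := hsp x hx
  exact ⟨S, h1, by rwa [Finset.empty_union]⟩

end Vale.Agent.P208
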