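import Vale.Agent.P208.Sparse4

namespace Vale.Agent.P208

/-- the `i`-th coordinate axis of `l_2` -/
noncomputable def axis (i : ℕ) : Submodule ℝ (lp (fun _ : ℕ => ℝ) 2) :=
  Submodule.span ℝ {lp.single 2 i (1 : ℝ)}

instance (i : ℕ) : FiniteDimensional ℝ (axis i) := by
  unfold axis
  infer_instance

theorem finrank_span_one_le {M : Type*} [AddCommGroup M] [Module ℝ M] (v : M) :
    Module.finrank ℝ (Submodule.span ℝ {v}) ≤ 1 := by
  by_cases hv : v = 0
  · subst hv
    rw [Submodule.span_zero_singleton, finrank_bot]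
    exact Nat.zero_le _
  · exact (finrank_span_singleton hv).le

theorem finrank_axis_le (i : ℕ) : Module.finrank ℝ (axis i) ≤ 1 :=
  finrank_span_one_le _

theorem single_ne (i j : ℕ) (h : j ≠ i) :
    (lp.single 2 i (1 : ℝ) : lp (fun _ : ℕ => ℝ) 2) j = 0 :=
  lp.single_apply_ne (E := fun _ : ℕ => ℝ) 2 i (1 : ℝ) h

theorem single_self (i : ℕ) :
    (lp.single 2 i (1 : ℝ) : lp (fun _ : ℕ => ℝ) 2) i = 1 :=
  lp.single_apply_self (E := fun _ : ℕ => ℝ) 2 i (1 : ℝ)

theorem axis_orth (i j : ℕ) (h : i ≠ j) : axis i ⟂ axis j := by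
  unfold axis
  rw [Submodule.isOrtho_span]
  intro u hu v hv
  rw [Set.mem_singleton_iff] at hu hv
  rw [hu, hv, lp.inner_single_left, single_ne j i h]
  simp

theorem mem_sup_axis (x : lp (fun _ : ℕ => ℝ) 2) (S : Finset ℕ) (h : ∀ i, i ∉ S → x i = 0) :
    x ∈ S.sup axis := by
  have hx : x = ∑ i ∈ S, (x i) • lp.single 2 i (1 : ℝ) := by
    ext j
    rw [lp.coeFn_sum, Finset.sum_apply]
    by_cases hj : j ∈ S
    · rw [Finset.sum_eq_single j]
      · rw [lp.coeFn_smul, Pi.smul_apply, single_self]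
        simp
      · intro i _ hij
        rw [lp.coeFn_smul, Pi.smul_apply, single_ne i j (Ne.symm hij)]
        simp
      · intro hn
        exact absurd hj hn
    · rw [h j hj]
      symm
      apply Finset.sum_eq_zero
      intro i hi
      have hij : j ≠ i := fun e => hj (e ▸ hi)
      rw [lp.coeFn_smul, Pi.smul_apply, single_ne i j hij]
      simp
  rw [hx]
  apply Submodule.sum_mem
  intro i hi
  apply (Finset.le_sup (f := axis) hi)
  unfold axis
  exact Submodule.smul_mem _ _ (Submodule.mem_span_singleton_self _)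

theorem sparse_l2_embeds (d lam : ℕ) (X : Set (lp (fun _ : ℕ => ℝ) 2))
    (hsp : ∀ x ∈ X, ∃ S : Finset ℕ, S.card ≤ d ∧ ∀ i, i ∉ S → x i = 0)
    (hdoub : IsDoublingWith X lam) : EmbedsWith X (kS 1 d 0 lam) (DS 1 d 0 lam) := by
  refine sparse_embeds axis 1 d lam finrank_axis_le axis_orth X ?_ hdoub
  intro x hx
  obtain ⟨S, h1, h2⟩ := hsp x hx
  exact ⟨S, h1, mem_sup_axis x S h2⟩

end Vale.Agent.P208
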